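import Vale.Agent.P200e.TwoB

namespace Vale.Agent.P200e

open MvPolynomial Module

variable {K : Type} [Field K]

theorem unit_deg {n a : ℕ} {q : MvPolynomial (Fin n) K} (hq : IsUnit q) (hh : q.IsHomogeneous a) :
    a = 0 := by
  have h3 := hh.totalDegree hq.ne_zero
  obtain ⟨c, hc⟩ := (MvPolynomial.isUnit_iff_eq_C_of_isReduced.mp hq)
  rw [hc.2, totalDegree_C] at h3
  exact h3.symm

theorem lemmaC {a b : ℕ} (ha : 0 < a) {I : Ideal (MvPolynomial (Fin 2) K)} (hI : Two a b I)
    (d : ℕ) : d + 1 - b ≤ finrank K (piece I d) := by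
  obtain ⟨g, hg, h, hh, hga, hhb, hrel⟩ := hI
  have h0 : h ≠ 0 := by
    rintro rfl
    have := unit_deg (hrel dvd_rfl (dvd_zero g)) hga
    omega
  by_cases hb : b ≤ d
  · have h1 : (homogeneousSubmodule (Fin 2) K (d - b)).map (ml h) ≤ piece I d := by
      rintro _ ⟨u, hu, rfl⟩
      refine ⟨?_, ?_⟩
      · exact I.mul_mem_right _ hh
      · have h2 : (u : MvPolynomial (Fin 2) K).IsHomogeneous (d - b) := hu
        have h3 := hhb.mul h2
        have h4 : b + (d - b) = d := by omega
        rw [h4] at h3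
        exact h3
    have h2 := Submodule.finrank_mono h1
    rw [finrank_map_ml h0, finrank_S2] at h2
    omega
  · omega

/-- the exponent set attached to `I` -/
def Phi0 (b : ℕ) (I : Ideal (MvPolynomial (Fin 2) K)) : Set (Fin 2 → ℕ) :=
  {e | b ≤ e 1 ∨ (e 0 + e 1 + 1 - b) +
    (e 0 + e 1 + 1 - finrank K (piece I (e 0 + e 1))) ≤ e 0}

theorem piece_mono {n : ℕ} {I J : Ideal (MvPolynomial (Fin n) K)} (h : I ≤ J) (d : ℕ) :
    piece I d ≤ piece J d := fun _ hx => ⟨h hx.1, hx.2⟩

theorem Phi0_mono (b : ℕ) {I J : Ideal (MvPolynomial (Fin 2) K)} (h : I ≤ J) :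
    Phi0 b I ⊆ Phi0 b J := by
  intro e he
  rcases he with he | he
  · exact Or.inl he
  · right
    have := Submodule.finrank_mono (piece_mono h (e 0 + e 1))
    omega

theorem Phi0_top (b : ℕ) (e : Fin 2 → ℕ) : e ∈ Phi0 b (⊤ : Ideal (MvPolynomial (Fin 2) K)) := by
  have h1 : piece (⊤ : Ideal (MvPolynomial (Fin 2) K)) (e 0 + e 1)
      = homogeneousSubmodule (Fin 2) K (e 0 + e 1) := by
    ext f
    exact ⟨fun h => h.2, fun h => ⟨trivial, h⟩⟩
  by_cases hb : b ≤ e 1
  · exact Or.inl hb
  · right
    rw [h1, finrank_S2]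
    omega

theorem upper2 (P : ℕ → ℕ → Prop) (h1 : ∀ i j, P i j → P (i + 1) j)
    (h2 : ∀ i j, P i j → P i (j + 1)) {i j i' j' : ℕ} (hi : i ≤ i') (hj : j ≤ j')
    (h : P i j) : P i' j' := by
  have h3 : P i' j := by
    induction i', hi using Nat.le_induction with
    | base => exact h
    | succ n _ ih => exact h1 _ _ ih
  induction j', hj using Nat.le_induction with
  | base => exact h3
  | succ n _ ih => exact h2 _ _ ih

theorem Phi0_upper {a b : ℕ} (hab : a ≤ b) {I : Ideal (MvPolynomial (Fin 2) K)}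
    (hI : Two a b I) : IsUpperSet (Phi0 b I) := by
  intro e e' hee he
  refine upper2 (fun i j => b ≤ j ∨ (i + j + 1 - b) +
    (i + j + 1 - finrank K (piece I (i + j))) ≤ i) ?_ ?_ (hee 0) (hee 1) he
  · rintro i j (h | h)
    · exact Or.inl h
    · right
      by_cases h0 : finrank K (piece I (i + j)) = 0
      · omega
      · have hA := lemmaA I (i + j) (by omega)
        have e1 : i + 1 + j = i + j + 1 := by omega
        rw [e1]
        omega
  · rintro i j (h | h)
    · exact Or.inl (by omega)
    · by_cases hj : b ≤ j + 1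
      · exact Or.inl hj
      · right
        have h0 : finrank K (piece I (i + j)) ≠ 0 := by omega
        have hA := lemmaA I (i + j) (by omega)
        have e1 : i + (j + 1) = i + j + 1 := by omega
        rw [e1]
        have hle := finrank_piece_le I (i + j)
        by_cases hd : b ≤ i + j + 1
        · by_cases hf : finrank K (piece I (i + j)) < i + j + 1
          · have hB := lemmaB hab hI hd (by omega) hf
            omega
          · omega
        · omega

theorem Phi0_cnt {a b : ℕ} (ha : 0 < a) {I : Ideal (MvPolynomial (Fin 2) K)}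
    (hI : Two a b I) (d : ℕ) : cnt (Phi0 b I) d = finrank K (piece I d) := by
  classical
  rw [cnt_two]
  have hC := lemmaC ha hI d
  have hle := finrank_piece_le I d
  have h1 := Finset.card_filter_add_card_filter_not (s := Finset.range (d + 1))
    (fun i => ![i, d - i] ∈ Phi0 b I)
  have h2 : (Finset.range (d + 1)).filter (fun i => ¬ ![i, d - i] ∈ Phi0 b I)
      = Finset.Ico (d + 1 - b) ((d + 1 - b) + (d + 1 - finrank K (piece I d))) := by
    ext i
    rw [Finset.mem_filter, Finset.mem_range, Finset.mem_Ico]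
    change (i < d + 1 ∧ ¬ (b ≤ d - i ∨ (i + (d - i) + 1 - b) +
      (i + (d - i) + 1 - finrank K (piece I (i + (d - i)))) ≤ i)) ↔ _
    constructor
    · rintro ⟨h3, h4⟩
      have h5 : i + (d - i) = d := by omega
      rw [h5] at h4
      omega
    · rintro ⟨h3, h4⟩
      have h5 : i + (d - i) = d := by omega
      rw [h5]
      omega
  rw [h2, Nat.card_Ico, Finset.card_range] at h1
  omega

theorem Phi0_mem_b (b : ℕ) (I : Ideal (MvPolynomial (Fin 2) K)) : ![0, b] ∈ Phi0 b I :=
  Or.inl le_rfl

theorem Phi0_mem_a {a b : ℕ} (ha : 0 < a) (hab : a ≤ b) {I : Ideal (MvPolynomial (Fin 2) K)}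
    (hI : Two a b I) : ![a, 0] ∈ Phi0 b I := by
  right
  change (a + 0 + 1 - b) + (a + 0 + 1 - finrank K (piece I (a + 0))) ≤ a
  have e0 : piece I (a + 0) = piece I a := by rw [Nat.add_zero]
  rw [e0]
  obtain ⟨g, hg, h, hh, hga, hhb, hrel⟩ := hI
  have hg0 : g ≠ 0 := by
    rintro rfl
    have := unit_deg (hrel (dvd_zero h) dvd_rfl) hhb
    omega
  have hpos : 0 < finrank K (piece I a) := by
    have : Nontrivial (piece I a) := ⟨⟨⟨g, hg, hga⟩, 0, fun h => hg0 (congrArg Subtype.val h)⟩⟩
    exact finrank_pos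
  by_cases hb : a = b
  · have h2 : 1 < finrank K (piece I a) := by
      by_contra hcon
      obtain ⟨v, hv⟩ := finrank_le_one_iff.mp (not_lt.mp hcon)
      subst hb
      have d1 : (v : MvPolynomial (Fin 2) K) ∣ g := by
        obtain ⟨c, hc⟩ := hv ⟨g, hg, hga⟩
        have := congrArg Subtype.val hc
        change c • (v : MvPolynomial (Fin 2) K) = g at this
        rw [← this, smul_eq_C_mul]
        exact dvd_mul_left _ _
      have d2 : (v : MvPolynomial (Fin 2) K) ∣ h := by
        obtain ⟨c, hc⟩ := hv ⟨h, hh, hhb⟩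
        have := congrArg Subtype.val hc
        change c • (v : MvPolynomial (Fin 2) K) = h at this
        rw [← this, smul_eq_C_mul]
        exact dvd_mul_left _ _
      have := unit_deg (hrel d1 d2) v.2.2
      omega
    omega
  · omega

end Vale.Agent.P200e
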