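import Vale.Agent.P200e.Main

namespace Vale.Agent.P200e

open MvPolynomial Module

variable {K : Type} [Field K]

theorem lin_hom {N : ℕ} (φ : MvPolynomial (Fin N) K ≃ₐ[K] MvPolynomial (Fin N) K)
    (hφ : ∀ i, (φ (X i)).IsHomogeneous 1) {f : MvPolynomial (Fin N) K} {d : ℕ}
    (hf : f.IsHomogeneous d) : (φ f).IsHomogeneous d := by
  have h : (φ : MvPolynomial (Fin N) K →ₐ[K] MvPolynomial (Fin N) K)
      = aeval (fun i => φ (X i)) := by
    apply MvPolynomial.algHom_ext
    intro i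
    rw [aeval_X]
    rfl
  have h2 : φ f = aeval (fun i => φ (X i)) f := DFunLike.congr_fun h f
  have h3 := hf.aeval (fun i => φ (X i)) hφ
  rw [one_mul] at h3
  rw [h2]
  exact h3

theorem lin_comp {N : ℕ} (φ : MvPolynomial (Fin N) K ≃ₐ[K] MvPolynomial (Fin N) K)
    (hφ : ∀ i, (φ (X i)).IsHomogeneous 1) (f : MvPolynomial (Fin N) K) (d : ℕ) :
    φ (homogeneousComponent d f) = homogeneousComponent d (φ f) := by
  have h1 : homogeneousComponent d (φ f)
      = ∑ i ∈ Finset.range (f.totalDegree + 1),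
        if d = i then φ (homogeneousComponent i f) else 0 := by
    conv_lhs => rw [← sum_homogeneousComponent f]
    rw [map_sum, map_sum]
    apply Finset.sum_congr rfl
    intro i _
    exact homogeneousComponent_of_mem (lin_hom φ hφ (homogeneousComponent_isHomogeneous i f))
  rw [h1, Finset.sum_ite_eq]
  by_cases hd : d ∈ Finset.range (f.totalDegree + 1)
  · rw [if_pos hd]
  · rw [if_neg hd]
    rw [Finset.mem_range] at hd
    rw [homogeneousComponent_eq_zero d f (by omega), map_zero]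

theorem comap_hom {N : ℕ} (φ : MvPolynomial (Fin N) K ≃ₐ[K] MvPolynomial (Fin N) K)
    (hφ : ∀ i, (φ (X i)).IsHomogeneous 1) {I : Ideal (MvPolynomial (Fin N) K)}
    (hI : HomIdeal I) : HomIdeal (I.comap φ) := by
  intro f hf d
  rw [Ideal.mem_comap] at hf ⊢
  rw [lin_comp φ hφ]
  exact hI _ hf d

theorem comap_finrank {N : ℕ} (φ : MvPolynomial (Fin N) K ≃ₐ[K] MvPolynomial (Fin N) K)
    (hφ : ∀ i, (φ (X i)).IsHomogeneous 1) (I : Ideal (MvPolynomial (Fin N) K)) (d : ℕ) :
    finrank K (piece (I.comap φ) d) = finrank K (piece I d) := by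
  have h : (piece (I.comap φ) d).map φ.toLinearMap = piece I d := by
    ext g
    constructor
    · rintro ⟨f, ⟨hf, hfd⟩, rfl⟩
      exact ⟨hf, lin_hom φ hφ hfd⟩
    · rintro ⟨hg, hgd⟩
      have h1 : φ (homogeneousComponent d (φ.symm g)) = g := by
        rw [lin_comp φ hφ, AlgEquiv.apply_symm_apply]
        exact (homogeneousComponent_of_mem hgd).trans (if_pos rfl)
      refine ⟨homogeneousComponent d (φ.symm g), ⟨?_, homogeneousComponent_isHomogeneous _ _⟩, h1⟩
      change φ (homogeneousComponent d (φ.symm g)) ∈ I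
      rw [h1]
      exact hg
  rw [← h]
  exact LinearEquiv.finrank_eq (Submodule.equivMapOfInjective φ.toLinearMap φ.injective _)

/-- the theorem up to a linear change of coordinates -/
theorem main' (n : ℕ) (A : Fin n → ℕ) (a b : ℕ) (ha : 0 < a) (hab : a ≤ b)
    (φ : MvPolynomial (Fin (n + 2)) K ≃ₐ[K] MvPolynomial (Fin (n + 2)) K)
    (hφ : ∀ i, (φ (X i)).IsHomogeneous 1)
    (I : Ideal (MvPolynomial (Fin (n + 2)) K)) (hI : HomIdeal I)
    (hA : Flag n A (I.comap φ)) (h2 : HasTwo n a b (I.comap φ)) :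
    ∃ M : Ideal (MvPolynomial (Fin (n + 2)) K), IsMonomialIdeal M ∧
      (∀ i : Fin n, A i ≠ 0 → X (Fin.castAdd 2 i) ^ (A i) ∈ M) ∧
      X (Fin.natAdd n 0) ^ a ∈ M ∧ X (Fin.natAdd n 1) ^ b ∈ M ∧
      ∀ d, finrank K (piece M d) = finrank K (piece I d) := by
  obtain ⟨M, h1, h3, h4, h5, h6⟩ := main n A a b ha hab (I.comap φ) (comap_hom φ hφ hI) hA h2
  exact ⟨M, h1, h3, h4, h5, fun d => (h6 d).trans (comap_finrank φ hφ I d)⟩

end Vale.Agent.P200e
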