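import Mathlib

namespace Vale.Agent.P200e

open MvPolynomial

variable {K : Type} [Field K]

/-- The degree `d` part of an ideal of a polynomial ring (a `K`-subspace). -/
noncomputable def piece {n : ℕ} (I : Ideal (MvPolynomial (Fin n) K)) (d : ℕ) :
    Submodule K (MvPolynomial (Fin n) K) :=
  I.restrictScalars K ⊓ homogeneousSubmodule (Fin n) K d

/-- Homogeneous ideals: closed under taking homogeneous components. -/
def HomIdeal {n : ℕ} (I : Ideal (MvPolynomial (Fin n) K)) : Prop :=
  ∀ f ∈ I, ∀ d : ℕ, homogeneousComponent d f ∈ I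

/-- Monomial ideals: generated by a set of monomials. -/
def IsMonomialIdeal {N : ℕ} (M : Ideal (MvPolynomial (Fin N) K)) : Prop :=
  ∃ S : Set (Fin N →₀ ℕ), M = Ideal.span ((fun m => monomial m (1 : K)) '' S)

/-- Restriction to the coordinate plane `X_0 = ... = X_(n-1) = 0`: the last two variables
`X_n, X_(n+1)` become the two variables of `MvPolynomial (Fin 2) K`. -/
noncomputable def res (n : ℕ) :
    MvPolynomial (Fin (n + 2)) K →ₐ[K] MvPolynomial (Fin 2) K :=
  aeval (fun j : Fin (n + 2) => if h : n ≤ (j : ℕ) then X ⟨(j : ℕ) - n, by omega⟩ else 0)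

/-- For every `i < n` with `A i ≠ 0` the ideal contains a polynomial in which `X_i ^ (A i)` occurs
and in which every other monomial is divisible by some `X_j` with `j < i`
(for example `X_i ^ (A i)` itself). -/
def Flag (n : ℕ) (A : Fin n → ℕ) (I : Ideal (MvPolynomial (Fin (n + 2)) K)) : Prop :=
  ∀ i : Fin n, A i ≠ 0 → ∃ f ∈ I,
    coeff (Finsupp.single (Fin.castAdd 2 i) (A i)) f ≠ 0 ∧
    ∀ m ∈ f.support, m = Finsupp.single (Fin.castAdd 2 i) (A i) ∨
      ∃ j < i, m (Fin.castAdd 2 j) ≠ 0

/-- The ideal contains forms `g`, `h` of degrees `a`, `b` whose restrictions to the plane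
`X_0 = ... = X_(n-1) = 0` are coprime. -/
def HasTwo (n a b : ℕ) (I : Ideal (MvPolynomial (Fin (n + 2)) K)) : Prop :=
  ∃ g ∈ I, ∃ h ∈ I, g.IsHomogeneous a ∧ h.IsHomogeneous b ∧ IsRelPrime (res n g) (res n h)

end Vale.Agent.P200e
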