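import Vale.Agent.P200e.IndG

namespace Vale.Agent.P200e

open MvPolynomial Module

variable {K : Type} [Field K] {r : ℕ}

theorem good_ofG (F : Set (MvPolynomial (Fin r) K)) : ∀ (n : ℕ) (A : Fin n → ℕ)
    {I : Ideal (MvPolynomial (Fin (r + n)) K)}, FlagR r n A I →
    (∀ p ∈ F, ∃ f ∈ I, resr r n f = p) → GoodG (fun J : Ideal (MvPolynomial (Fin r) K) => ∀ p ∈ F, p ∈ J) n A I
  | 0, _, I, _, h => by
      intro p hp
      obtain ⟨f, hf, hfp⟩ := h p hp
      rw [resr_zero] at hfp
      change p ∈ I
      rw [← hfp]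
      exact hf
  | n + 1, A, I, hF, h => by
      refine ⟨?_, good_ofG F n (Fin.tail A) ?_ ?_⟩
      · intro h0
        obtain ⟨f, hf, hc, hm⟩ := hF 0 h0
        rw [fst_zero] at hc
        have h4 : f = C (coeff (Finsupp.single (0 : Fin (r + n + 1)) (A 0)) f) * X 0 ^ (A 0) := by
          ext m
          rw [coeff_C_mul, coeff_X_pow]
          by_cases hmm : m ∈ f.support
          · rcases hm m hmm with h5 | ⟨j, hj, _⟩
            · rw [fst_zero] at h5
              subst h5
              rw [if_pos rfl, mul_one]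
            · exact absurd hj (Fin.not_lt_zero j)
          · rw [notMem_support_iff.mp hmm]
            by_cases h6 : Finsupp.single (0 : Fin (r + n + 1)) (A 0) = m
            · subst h6
              exact absurd (notMem_support_iff.mp hmm) hc
            · rw [if_neg h6, mul_zero]
        generalize coeff (Finsupp.single (0 : Fin (r + n + 1)) (A 0)) f = c at hc h4
        have h5 : (X 0 : MvPolynomial (Fin (r + n + 1)) K) ^ (A 0) = C c⁻¹ * f := by
          rw [h4, ← mul_assoc, ← C_mul, inv_mul_cancel₀ hc, C_1, one_mul]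
        rw [h5]
        exact I.mul_mem_left _ hf
      · intro i hi
        obtain ⟨f, hf, hc, hm⟩ := hF i.succ hi
        have e1 : Finsupp.single (fst r i.succ : Fin (r + n + 1)) (A i.succ)
            = Finsupp.cons 0 (Finsupp.single (fst r i) (A i.succ)) := by
          rw [fst_succ]
          ext j
          refine Fin.cases ?_ (fun j => ?_) j
          · rw [Finsupp.cons_zero]
            exact Finsupp.single_eq_of_ne (Fin.succ_ne_zero _).symm
          · rw [Finsupp.cons_succ]
            by_cases hj : j = fst r i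
            · subst hj
              exact Finsupp.single_eq_same.trans Finsupp.single_eq_same.symm
            · rw [Finsupp.single_eq_of_ne hj]
              exact Finsupp.single_eq_of_ne (fun h => hj (Fin.succ_injective _ h))
        refine ⟨cf (n := r + n) 0 f, ⟨f, hf, fun j hj => absurd hj (Nat.not_lt_zero j), rfl⟩,
          ?_, ?_⟩
        · rw [coeff_cf]
          rw [e1] at hc
          exact hc
        · intro m hmm
          rw [MvPolynomial.mem_support_iff, coeff_cf] at hmm
          rcases hm _ (MvPolynomial.mem_support_iff.mpr hmm) with h5 | ⟨j, hj, hj2⟩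
          · left
            rw [e1] at h5
            have := congrArg Finsupp.tail h5
            rw [Finsupp.tail_cons, Finsupp.tail_cons] at this
            exact this
          · right
            revert hj hj2
            refine Fin.cases ?_ (fun j => ?_) j
            · intro _ h6
              rw [fst_zero] at h6
              exact absurd (Finsupp.cons_zero 0 m) h6
            · intro hj h6
              refine ⟨j, Fin.succ_lt_succ_iff.mp hj, ?_⟩
              intro h7
              apply h6
              rw [fst_succ]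
              exact (Finsupp.cons_succ _ _ _).trans h7
      · intro p hp
        obtain ⟨f, hf, hfp⟩ := h p hp
        rw [resr_succ] at hfp
        exact ⟨cf (n := r + n) 0 f, ⟨f, hf, fun j hj => absurd hj (Nat.not_lt_zero j), rfl⟩, hfp⟩

theorem top_hom : HomIdeal (⊤ : Ideal (MvPolynomial (Fin r) K)) := fun _ _ _ => trivial

theorem lpp_top {a : Fin r → ℕ} (h : LppIdeal a (⊤ : Ideal (MvPolynomial (Fin r) K)))
    (e : Fin r → ℕ) : e ∈ lpp a (⊤ : Ideal (MvPolynomial (Fin r) K)) := by
  have h1 := h.2 0
  have h2 : 0 < finrank K (piece (⊤ : Ideal (MvPolynomial (Fin r) K)) 0) := by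
    have : Nontrivial (piece (⊤ : Ideal (MvPolynomial (Fin r) K)) 0) :=
      ⟨⟨⟨1, trivial, isHomogeneous_one _ _⟩, 0, fun h => one_ne_zero (congrArg Subtype.val h)⟩⟩
    exact finrank_pos
  rw [← h1] at h2
  obtain ⟨⟨e0, he0, hs⟩⟩ := (Nat.card_pos_iff.mp h2).1
  have h3 : e0 = 0 := by
    funext i
    exact (Finset.sum_eq_zero_iff.mp hs) i (Finset.mem_univ i)
  subst h3
  exact h.1 (fun i => Nat.zero_le (e i)) he0

theorem lpp_mono (a : Fin r → ℕ) {I J : Ideal (MvPolynomial (Fin r) K)} (h : I ≤ J) :
    lpp a I ⊆ lpp a J := by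
  rintro e (he | he)
  · exact Or.inl he
  · right
    have := Submodule.finrank_mono (piece_mono h (∑ i, e i))
    exact lt_of_lt_of_le he (Nat.sub_le_sub_right this _)

theorem base_lpp (a : Fin r → ℕ) (F : Set (MvPolynomial (Fin r) K))
    (hE : ∀ J : Ideal (MvPolynomial (Fin r) K), HomIdeal J → (∀ p ∈ F, p ∈ J) → LppIdeal a J) :
    BaseOK (fun J : Ideal (MvPolynomial (Fin r) K) => ∀ p ∈ F, p ∈ J) (lpp a) a where
  gmono _ _ h h' := fun p hp => h (h' p hp)
  mono _ _ h := lpp_mono a h
  top e := lpp_top (hE ⊤ top_hom (fun _ _ => trivial)) e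
  upper I hI h := (hE I hI h).1
  cnt I hI h d := (hE I hI h).2 d
  pow I j hj := Or.inl ⟨j, hj, by
    change a j ≤ (Pi.single j (a j) : Fin r → ℕ) j
    rw [Pi.single_eq_same]⟩

/-- EGH for `F` in `r` variables gives EGH for `F` and powers of linear forms in `r + n`
variables. -/
theorem mainG (r : ℕ) (a : Fin r → ℕ) (F : Set (MvPolynomial (Fin r) K))
    (hE : ∀ J : Ideal (MvPolynomial (Fin r) K), HomIdeal J → (∀ p ∈ F, p ∈ J) → LppIdeal a J)
    (n : ℕ) (A : Fin n → ℕ)
    (φ : MvPolynomial (Fin (r + n)) K ≃ₐ[K] MvPolynomial (Fin (r + n)) K)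
    (hφ : ∀ i, (φ (X i)).IsHomogeneous 1)
    (I : Ideal (MvPolynomial (Fin (r + n)) K)) (hI : HomIdeal I)
    (hA : FlagR r n A (I.comap φ))
    (hF : ∀ p ∈ F, ∃ f ∈ I.comap φ, resr r n f = p) :
    ∃ M : Ideal (MvPolynomial (Fin (r + n)) K), IsMonomialIdeal M ∧
      (∀ i : Fin n, A i ≠ 0 → X (fst r i) ^ (A i) ∈ M) ∧
      (∀ j : Fin r, a j ≠ 0 → X (lst n j) ^ (a j) ∈ M) ∧
      ∀ d, finrank K (piece M d) = finrank K (piece I d) := by
  have B := base_lpp a F hE
  have hg := good_ofG F n A hA hF
  have hI' := comap_hom φ hφ hI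
  have hu := PhiG_upper B n A hI' hg
  refine ⟨_, ⟨{m : Fin (r + n) →₀ ℕ | (m : Fin (r + n) → ℕ) ∈ PhiG (lpp a) n (I.comap φ)}, rfl⟩,
    ?_, ?_, ?_⟩
  · intro i hi
    exact X_pow_mem (PhiG_first B n A hg i hi)
  · intro j hj
    exact X_pow_mem (PhiG_last B n j hj)
  · intro d
    rw [finrank_mono_ideal hu, PhiG_cnt B n A hI' hg d]
    exact comap_finrank φ hφ I d

end Vale.Agent.P200e
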