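import Vale.Agent.P200e.Slice

namespace Vale.Agent.P200e

open MvPolynomial Module

variable {K : Type} [Field K]

/-- the exponent set attached to `I` -/
def Phi (b : ℕ) : (n : ℕ) → Ideal (MvPolynomial (Fin (n + 2)) K) → Set (Fin (n + 2) → ℕ)
  | 0, I => Phi0 b I
  | n + 1, I => {e | Fin.tail (n := n + 2) e ∈ Phi b n (slice (n := n + 2) I (e 0))}

/-- the class of ideals -/
def Good : (n : ℕ) → (Fin n → ℕ) → ℕ → ℕ → Ideal (MvPolynomial (Fin (n + 2)) K) → Prop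
  | 0, _, a, b, I => Two a b I
  | n + 1, A, a, b, I => (A 0 ≠ 0 → (X 0 : MvPolynomial (Fin (n + 1 + 2)) K) ^ (A 0) ∈ I) ∧
      Good n (Fin.tail A) a b (slice (n := n + 2) I 0)

theorem Good_mono : ∀ (n : ℕ) (A : Fin n → ℕ) (a b : ℕ)
    {I J : Ideal (MvPolynomial (Fin (n + 2)) K)}, I ≤ J → Good n A a b I → Good n A a b J
  | 0, _, _, _, _, _, h, ⟨g, hg, h', hh, h1, h2, h3⟩ => ⟨g, h hg, h', h hh, h1, h2, h3⟩
  | n + 1, A, a, b, _, _, h, ⟨h1, h2⟩ =>
      ⟨fun h0 => h (h1 h0), Good_mono n (Fin.tail A) a b (slice_mono (n := n + 2) h 0) h2⟩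

theorem Phi_mono (b : ℕ) : ∀ (n : ℕ) {I J : Ideal (MvPolynomial (Fin (n + 2)) K)}, I ≤ J →
    Phi b n I ⊆ Phi b n J
  | 0, _, _, h => Phi0_mono b h
  | n + 1, _, _, h => fun _ he => Phi_mono b n (slice_mono (n := n + 2) h _) he

theorem slice_top {n : ℕ} (k : ℕ) :
    slice (⊤ : Ideal (MvPolynomial (Fin (n + 1)) K)) k = ⊤ := by
  rw [Ideal.eq_top_iff_one]
  refine slice_mono' _ (Nat.zero_le k) ?_
  refine ⟨1, trivial, fun j hj => absurd hj (Nat.not_lt_zero j), ?_⟩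
  rw [cf_apply, map_one, Polynomial.coeff_one_zero]

theorem Phi_top (b : ℕ) : ∀ (n : ℕ) (e : Fin (n + 2) → ℕ),
    e ∈ Phi b n (⊤ : Ideal (MvPolynomial (Fin (n + 2)) K))
  | 0, e => Phi0_top b e
  | n + 1, e => by
      change Fin.tail (n := n + 2) e ∈ Phi b n (slice (n := n + 2) ⊤ (e 0))
      rw [slice_top]
      exact Phi_top b n _

theorem Phi_upper {a b : ℕ} (hab : a ≤ b) : ∀ (n : ℕ) (A : Fin n → ℕ)
    {I : Ideal (MvPolynomial (Fin (n + 2)) K)}, Good n A a b I → IsUpperSet (Phi b n I)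
  | 0, _, _, h => Phi0_upper hab h
  | n + 1, A, I, ⟨_, h2⟩ => by
      intro e e' hee he
      have h3 : Good n (Fin.tail A) a b (slice (n := n + 2) I (e 0)) :=
        Good_mono n _ a b (slice_mono' (n := n + 2) I (Nat.zero_le _)) h2
      have h4 := Phi_upper hab n (Fin.tail A) h3
      have h5 : Fin.tail (n := n + 2) e' ∈ Phi b n (slice (n := n + 2) I (e 0)) :=
        h4 (fun i => hee i.succ) he
      exact Phi_mono b n (slice_mono' (n := n + 2) I (hee 0)) h5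

theorem Phi_cnt {a b : ℕ} (ha : 0 < a) : ∀ (n : ℕ) (A : Fin n → ℕ)
    {I : Ideal (MvPolynomial (Fin (n + 2)) K)}, HomIdeal I → Good n A a b I →
    ∀ d, cnt (Phi b n I) d = finrank K (piece I d)
  | 0, _, _, _, h => fun d => Phi0_cnt ha h d
  | n + 1, A, I, hI, ⟨_, h2⟩ => by
      intro d
      have h3 : ∀ k, Good n (Fin.tail A) a b (slice (n := n + 2) I k) := fun k =>
        Good_mono n _ a b (slice_mono' (n := n + 2) I (Nat.zero_le _)) h2
      have h4 := cnt_slices (n := n + 2) (fun k => Phi b n (slice (n := n + 2) I k)) d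
      have h5 := finrank_slices (n := n + 2) hI d
      rw [h5]
      refine Eq.trans h4 ?_
      apply Finset.sum_congr rfl
      intro k _
      exact Phi_cnt ha n (Fin.tail A) (slice_hom (n := n + 2) hI k) (h3 k) (d - k)

/-- exponent vector of `X_i ^ k` -/
def ev {N : ℕ} (i : Fin N) (k : ℕ) : Fin N → ℕ := Pi.single i k

theorem tail_ev_succ {N : ℕ} (i : Fin N) (k : ℕ) :
    Fin.tail (ev i.succ k) = ev i k := by
  funext j
  change (Pi.single i.succ k : Fin (N + 1) → ℕ) j.succ = (Pi.single i k : Fin N → ℕ) j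
  by_cases h : j = i
  · subst h; simp
  · rw [Pi.single_eq_of_ne h, Pi.single_eq_of_ne (fun h' => h (Fin.succ_injective _ h'))]

theorem ev_succ_zero {N : ℕ} (i : Fin N) (k : ℕ) : ev i.succ k 0 = 0 := by
  change (Pi.single i.succ k : Fin (N + 1) → ℕ) 0 = 0
  rw [Pi.single_eq_of_ne (Fin.succ_ne_zero i).symm]

theorem Phi_ev_succ (b n : ℕ) {I : Ideal (MvPolynomial (Fin (n + 1 + 2)) K)}
    (i : Fin (n + 2)) (k : ℕ) (h : ev i k ∈ Phi b n (slice (n := n + 2) I 0)) :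
    (ev i.succ k : Fin (n + 1 + 2) → ℕ) ∈ Phi b (n + 1) I := by
  change Fin.tail (n := n + 2) (ev i.succ k) ∈
    Phi b n (slice (n := n + 2) I ((ev i.succ k : Fin (n + 2 + 1) → ℕ) 0))
  rw [tail_ev_succ, ev_succ_zero]
  exact h

theorem slice_pow {n k : ℕ} {I : Ideal (MvPolynomial (Fin (n + 1)) K)}
    (h : (X 0 : MvPolynomial (Fin (n + 1)) K) ^ k ∈ I) : slice I k = ⊤ := by
  rw [Ideal.eq_top_iff_one]
  refine ⟨X 0 ^ k, h, ?_, ?_⟩
  · intro j hj
    rw [cf_apply, map_pow, finSuccEquiv_X_zero, Polynomial.coeff_X_pow, if_neg (by omega)]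
  · rw [cf_apply, map_pow, finSuccEquiv_X_zero, Polynomial.coeff_X_pow, if_pos rfl]

theorem Phi_last {a b : ℕ} (ha : 0 < a) (hab : a ≤ b) : ∀ (n : ℕ) (A : Fin n → ℕ)
    {I : Ideal (MvPolynomial (Fin (n + 2)) K)}, Good n A a b I →
    (ev (Fin.natAdd n 0) a : Fin (n + 2) → ℕ) ∈ Phi b n I ∧
    (ev (Fin.natAdd n 1) b : Fin (n + 2) → ℕ) ∈ Phi b n I
  | 0, _, I, h => by
      constructor
      · have h1 := Phi0_mem_a ha hab h
        have h2 : (ev (Fin.natAdd 0 0) a : Fin (0 + 2) → ℕ) = ![a, 0] := by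
          funext j
          fin_cases j <;> rfl
        change (ev (Fin.natAdd 0 0) a : Fin (0 + 2) → ℕ) ∈ Phi0 b I
        rw [h2]
        exact h1
      · have h1 := Phi0_mem_b b I
        have h2 : (ev (Fin.natAdd 0 1) b : Fin (0 + 2) → ℕ) = ![0, b] := by
          funext j
          fin_cases j <;> rfl
        change (ev (Fin.natAdd 0 1) b : Fin (0 + 2) → ℕ) ∈ Phi0 b I
        rw [h2]
        exact h1
  | n + 1, A, I, ⟨_, h2⟩ => by
      obtain ⟨h3, h4⟩ := Phi_last ha hab n (Fin.tail A) h2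
      have e1 : (Fin.natAdd (n + 1) 0 : Fin (n + 1 + 2)) = (Fin.natAdd n 0 : Fin (n + 2)).succ := by
        apply Fin.ext; simp [Fin.natAdd]
      have e2 : (Fin.natAdd (n + 1) 1 : Fin (n + 1 + 2)) = (Fin.natAdd n 1 : Fin (n + 2)).succ := by
        apply Fin.ext; simp [Fin.natAdd]
      rw [e1, e2]
      exact ⟨Phi_ev_succ b n _ a h3, Phi_ev_succ b n _ b h4⟩

theorem Phi_first {a b : ℕ} : ∀ (n : ℕ) (A : Fin n → ℕ)
    {I : Ideal (MvPolynomial (Fin (n + 2)) K)}, Good n A a b I →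
    ∀ i : Fin n, A i ≠ 0 → (ev (Fin.castAdd 2 i) (A i) : Fin (n + 2) → ℕ) ∈ Phi b n I
  | 0, _, _, _ => fun i => i.elim0
  | n + 1, A, I, ⟨h1, h2⟩ => by
      intro i hi
      refine Fin.cases (motive := fun i => A i ≠ 0 →
        (ev (Fin.castAdd 2 i) (A i) : Fin (n + 1 + 2) → ℕ) ∈ Phi b (n + 1) I) ?_ ?_ i hi
      · intro h0
        have h3 : slice (n := n + 2) I (A 0) = ⊤ := slice_pow (n := n + 2) (h1 h0)
        change Fin.tail (n := n + 2) (ev (Fin.castAdd 2 0) (A 0)) ∈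
          Phi b n (slice (n := n + 2) I ((ev (Fin.castAdd 2 0) (A 0) : Fin (n + 1 + 2) → ℕ) 0))
        have h4 : (ev (Fin.castAdd 2 0) (A 0) : Fin (n + 1 + 2) → ℕ) 0 = A 0 := by
          change (Pi.single (Fin.castAdd 2 0) (A 0) : Fin (n + 1 + 2) → ℕ) 0 = A 0
          exact Pi.single_eq_same _ _
        rw [h4, h3]
        exact Phi_top b n _
      · intro j hj
        exact Phi_ev_succ b n (Fin.castAdd 2 j) (A j.succ)
          (Phi_first n (Fin.tail A) h2 j hj)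

end Vale.Agent.P200e
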