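import Vale.Agent.P200e.Defs

namespace Vale.Agent.P200e

open MvPolynomial Module

variable {K : Type} [Field K]

/-- The number of exponent vectors of degree `d` in the set `E`. -/
noncomputable def count {r : ℕ} (E : Set (Fin r → ℕ)) (d : ℕ) : ℕ :=
  Nat.card {e : Fin r → ℕ // e ∈ E ∧ ∑ i, e i = d}

/-- Exponent vectors of the monomials in `P = (X_i ^ (a i) : a i ≠ 0)`. -/
def powers {r : ℕ} (a : Fin r → ℕ) : Set (Fin r → ℕ) := {e | ∃ i, a i ≠ 0 ∧ a i ≤ e i}

/-- The lex-plus-powers set of the ideal `J`: the exponent vectors of `P`, and in each degree `d`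
the `dim J_d - dim P_d` lexicographically greatest exponent vectors outside `P`. -/
noncomputable def lpp {r : ℕ} (a : Fin r → ℕ) (J : Ideal (MvPolynomial (Fin r) K)) :
    Set (Fin r → ℕ) :=
  {e | e ∈ powers a ∨
    Nat.card {e' : Fin r → ℕ // e' ∉ powers a ∧ ∑ i, e' i = ∑ i, e i ∧ toLex e < toLex e'}
      < finrank K (piece J (∑ i, e i)) - count (powers a) (∑ i, e i)}

/-- The lex-plus-powers set of `J` is the exponent set of an ideal with the Hilbert function
of `J`. -/
def LppIdeal {r : ℕ} (a : Fin r → ℕ) (J : Ideal (MvPolynomial (Fin r) K)) : Prop :=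
  IsUpperSet (lpp a J) ∧ ∀ d, count (lpp a J) d = finrank K (piece J d)

/-- Restriction to the linear subspace `X_0 = ... = X_(n-1) = 0`: the last `r` variables
`X_n, ..., X_(n+r-1)` become the variables of `MvPolynomial (Fin r) K`. -/
noncomputable def resr (r n : ℕ) :
    MvPolynomial (Fin (r + n)) K →ₐ[K] MvPolynomial (Fin r) K :=
  aeval (fun j : Fin (r + n) => if h : n ≤ (j : ℕ) then X ⟨(j : ℕ) - n, by omega⟩ else 0)

/-- The `i`-th of the first `n` variables. -/
def fst (r : ℕ) {n : ℕ} (i : Fin n) : Fin (r + n) := ⟨i, by omega⟩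

/-- The `j`-th of the last `r` variables. -/
def lst {r : ℕ} (n : ℕ) (j : Fin r) : Fin (r + n) := ⟨n + j, by omega⟩

/-- For every `i < n` with `A i ≠ 0` the ideal contains a polynomial in which `X_i ^ (A i)` occurs
and in which every other monomial is divisible by some `X_j` with `j < i`
(for example `X_i ^ (A i)` itself). -/
def FlagR (r n : ℕ) (A : Fin n → ℕ) (I : Ideal (MvPolynomial (Fin (r + n)) K)) : Prop :=
  ∀ i : Fin n, A i ≠ 0 → ∃ f ∈ I, coeff (Finsupp.single (fst r i) (A i)) f ≠ 0 ∧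
    ∀ m ∈ f.support, m = Finsupp.single (fst r i) (A i) ∨ ∃ j < i, m (fst r j) ≠ 0

end Vale.Agent.P200e
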