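import Vale.Agent.P200e.Coord
import Vale.Agent.P200e.LDefs

namespace Vale.Agent.P200e

open MvPolynomial Module

variable {K : Type} [Field K] {r : ℕ}

theorem count_eq {N : ℕ} (E : Set (Fin N → ℕ)) (d : ℕ) : count E d = cnt E d := rfl

def PhiG (Φ : Ideal (MvPolynomial (Fin r) K) → Set (Fin r → ℕ)) :
    (n : ℕ) → Ideal (MvPolynomial (Fin (r + n)) K) → Set (Fin (r + n) → ℕ)
  | 0, I => Φ I
  | n + 1, I => {e | Fin.tail (n := r + n) e ∈ PhiG Φ n (slice (n := r + n) I (e 0))}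

def GoodG (G : Ideal (MvPolynomial (Fin r) K) → Prop) :
    (n : ℕ) → (Fin n → ℕ) → Ideal (MvPolynomial (Fin (r + n)) K) → Prop
  | 0, _, I => G I
  | n + 1, A, I => (A 0 ≠ 0 → (X 0 : MvPolynomial (Fin (r + n + 1)) K) ^ (A 0) ∈ I) ∧
      GoodG G n (Fin.tail A) (slice (n := r + n) I 0)

/-- what the base case has to provide -/
structure BaseOK (G : Ideal (MvPolynomial (Fin r) K) → Prop)
    (Φ : Ideal (MvPolynomial (Fin r) K) → Set (Fin r → ℕ)) (a : Fin r → ℕ) : Prop where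
  gmono : ∀ I J, I ≤ J → G I → G J
  mono : ∀ I J, I ≤ J → Φ I ⊆ Φ J
  top : ∀ e, e ∈ Φ ⊤
  upper : ∀ I, HomIdeal I → G I → IsUpperSet (Φ I)
  cnt : ∀ I, HomIdeal I → G I → ∀ d, cnt (Φ I) d = finrank K (piece I d)
  pow : ∀ I j, a j ≠ 0 → ev j (a j) ∈ Φ I

variable {G : Ideal (MvPolynomial (Fin r) K) → Prop}
    {Φ : Ideal (MvPolynomial (Fin r) K) → Set (Fin r → ℕ)} {a : Fin r → ℕ}

theorem GoodG_mono (B : BaseOK G Φ a) : ∀ (n : ℕ) (A : Fin n → ℕ)
    {I J : Ideal (MvPolynomial (Fin (r + n)) K)}, I ≤ J → GoodG G n A I → GoodG G n A J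
  | 0, _, _, _, h, h' => B.gmono _ _ h h'
  | n + 1, A, _, _, h, ⟨h1, h2⟩ =>
      ⟨fun h0 => h (h1 h0), GoodG_mono B n (Fin.tail A) (slice_mono (n := r + n) h 0) h2⟩

theorem PhiG_mono (B : BaseOK G Φ a) : ∀ (n : ℕ) {I J : Ideal (MvPolynomial (Fin (r + n)) K)},
    I ≤ J → PhiG Φ n I ⊆ PhiG Φ n J
  | 0, _, _, h => B.mono _ _ h
  | n + 1, _, _, h => fun _ he => PhiG_mono B n (slice_mono (n := r + n) h _) he

theorem PhiG_top (B : BaseOK G Φ a) : ∀ (n : ℕ) (e : Fin (r + n) → ℕ),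
    e ∈ PhiG Φ n (⊤ : Ideal (MvPolynomial (Fin (r + n)) K))
  | 0, e => B.top e
  | n + 1, e => by
      change Fin.tail (n := r + n) e ∈ PhiG Φ n (slice (n := r + n) ⊤ (e 0))
      rw [slice_top]
      exact PhiG_top B n _

theorem PhiG_upper (B : BaseOK G Φ a) : ∀ (n : ℕ) (A : Fin n → ℕ)
    {I : Ideal (MvPolynomial (Fin (r + n)) K)}, HomIdeal I → GoodG G n A I →
    IsUpperSet (PhiG Φ n I)
  | 0, _, _, hI, h => B.upper _ hI h
  | n + 1, A, I, hI, ⟨_, h2⟩ => by
      intro e e' hee he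
      have h3 : GoodG G n (Fin.tail A) (slice (n := r + n) I (e 0)) :=
        GoodG_mono B n _ (slice_mono' (n := r + n) I (Nat.zero_le _)) h2
      have h4 := PhiG_upper B n (Fin.tail A) (slice_hom (n := r + n) hI (e 0)) h3
      have h5 : Fin.tail (n := r + n) e' ∈ PhiG Φ n (slice (n := r + n) I (e 0)) :=
        h4 (fun i => hee i.succ) he
      exact PhiG_mono B n (slice_mono' (n := r + n) I (hee 0)) h5

theorem PhiG_cnt (B : BaseOK G Φ a) : ∀ (n : ℕ) (A : Fin n → ℕ)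
    {I : Ideal (MvPolynomial (Fin (r + n)) K)}, HomIdeal I → GoodG G n A I →
    ∀ d, cnt (PhiG Φ n I) d = finrank K (piece I d)
  | 0, _, _, hI, h => fun d => B.cnt _ hI h d
  | n + 1, A, I, hI, ⟨_, h2⟩ => by
      intro d
      have h3 : ∀ k, GoodG G n (Fin.tail A) (slice (n := r + n) I k) := fun k =>
        GoodG_mono B n _ (slice_mono' (n := r + n) I (Nat.zero_le _)) h2
      have h4 := cnt_slices (n := r + n) (fun k => PhiG Φ n (slice (n := r + n) I k)) d
      have h5 := finrank_slices (n := r + n) hI d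
      refine Eq.trans h4 (Eq.trans ?_ h5.symm)
      apply Finset.sum_congr rfl
      intro k _
      exact PhiG_cnt B n (Fin.tail A) (slice_hom (n := r + n) hI k) (h3 k) (d - k)

theorem PhiG_ev_succ (n : ℕ) {I : Ideal (MvPolynomial (Fin (r + n + 1)) K)}
    (i : Fin (r + n)) (k : ℕ) (h : ev i k ∈ PhiG Φ n (slice (n := r + n) I 0)) :
    (ev i.succ k : Fin (r + n + 1) → ℕ) ∈ PhiG Φ (n + 1) I := by
  change Fin.tail (n := r + n) (ev i.succ k) ∈
    PhiG Φ n (slice (n := r + n) I ((ev i.succ k : Fin (r + n + 1) → ℕ) 0))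
  rw [tail_ev_succ, ev_succ_zero]
  exact h

theorem lst_succ (n : ℕ) (j : Fin r) : (lst (n + 1) j : Fin (r + n + 1)) = (lst n j).succ := by
  apply Fin.ext
  change n + 1 + (j : ℕ) = n + j + 1
  omega

theorem fst_succ {n : ℕ} (i : Fin n) :
    (fst r i.succ : Fin (r + n + 1)) = (fst r i).succ := by
  apply Fin.ext
  rfl

theorem fst_zero (n : ℕ) : (fst r (0 : Fin (n + 1)) : Fin (r + n + 1)) = 0 := by
  apply Fin.ext
  rfl

theorem PhiG_last (B : BaseOK G Φ a) : ∀ (n : ℕ) {I : Ideal (MvPolynomial (Fin (r + n)) K)}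
    (j : Fin r), a j ≠ 0 → (ev (lst n j) (a j) : Fin (r + n) → ℕ) ∈ PhiG Φ n I
  | 0, I, j, hj => by
      have h : (lst 0 j : Fin (r + 0)) = j := by
        apply Fin.ext
        change 0 + (j : ℕ) = j
        omega
      rw [h]
      exact B.pow I j hj
  | n + 1, I, j, hj => by
      rw [lst_succ]
      exact PhiG_ev_succ n _ (a j) (PhiG_last B n j hj)

theorem PhiG_first (B : BaseOK G Φ a) : ∀ (n : ℕ) (A : Fin n → ℕ)
    {I : Ideal (MvPolynomial (Fin (r + n)) K)}, GoodG G n A I →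
    ∀ i : Fin n, A i ≠ 0 → (ev (fst r i) (A i) : Fin (r + n) → ℕ) ∈ PhiG Φ n I
  | 0, _, _, _ => fun i => i.elim0
  | n + 1, A, I, ⟨h1, h2⟩ => by
      intro i hi
      refine Fin.cases (motive := fun i => A i ≠ 0 →
        (ev (fst r i) (A i) : Fin (r + n + 1) → ℕ) ∈ PhiG Φ (n + 1) I) ?_ ?_ i hi
      · intro h0
        have h3 : slice (n := r + n) I (A 0) = ⊤ := slice_pow (n := r + n) (h1 h0)
        rw [fst_zero]
        change Fin.tail (n := r + n) (ev 0 (A 0)) ∈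
          PhiG Φ n (slice (n := r + n) I ((ev 0 (A 0) : Fin (r + n + 1) → ℕ) 0))
        have h4 : (ev 0 (A 0) : Fin (r + n + 1) → ℕ) 0 = A 0 := Pi.single_eq_same _ _
        rw [h4, h3]
        exact PhiG_top B n _
      · intro j hj
        rw [fst_succ]
        exact PhiG_ev_succ n (fst r j) (A j.succ) (PhiG_first B n (Fin.tail A) h2 j hj)

theorem resr_succ (n : ℕ) (f : MvPolynomial (Fin (r + n + 1)) K) :
    resr r (n + 1) f = resr r n (cf (n := r + n) 0 f) := by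
  rw [cf_zero_eq (N := r + n)]
  have h : (resr r (n + 1) : MvPolynomial (Fin (r + n + 1)) K →ₐ[K] MvPolynomial (Fin r) K)
      = (resr r n).comp (cfA (N := r + n)) := by
    apply MvPolynomial.algHom_ext
    intro i
    rw [AlgHom.comp_apply]
    unfold resr cfA
    rw [aeval_X]
    refine Fin.cases ?_ (fun i => ?_) i
    · rw [aeval_X, Fin.cons_zero, map_zero, dif_neg]
      simp
    · rw [aeval_X, Fin.cons_succ, aeval_X]
      by_cases hi : n ≤ (i : ℕ)
      · rw [dif_pos (by rw [Fin.val_succ]; omega), dif_pos hi]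
        congr 1
        apply Fin.ext
        simp
      · rw [dif_neg (by rw [Fin.val_succ]; omega), dif_neg hi]
  exact DFunLike.congr_fun h f

theorem resr_zero (f : MvPolynomial (Fin (r + 0)) K) : resr r 0 f = f := by
  have h : (resr r 0 : MvPolynomial (Fin r) K →ₐ[K] MvPolynomial (Fin r) K)
      = AlgHom.id K _ := by
    apply MvPolynomial.algHom_ext
    intro i
    unfold resr
    rw [aeval_X, dif_pos (Nat.zero_le _)]
    rfl
  exact DFunLike.congr_fun h f

end Vale.Agent.P200e
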