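import Vale.Agent.P200e.Ind

namespace Vale.Agent.P200e

open MvPolynomial Module

variable {K : Type} [Field K]

theorem mem_mono_iff {N : ℕ} {E : Set (Fin N → ℕ)} (hE : IsUpperSet E)
    (f : MvPolynomial (Fin N) K) :
    f ∈ Ideal.span ((fun m => monomial m (1 : K)) '' {m : Fin N →₀ ℕ | (m : Fin N → ℕ) ∈ E}) ↔
      ∀ m ∈ f.support, (m : Fin N → ℕ) ∈ E := by
  rw [mem_ideal_span_monomial_image]
  constructor
  · intro h m hm
    obtain ⟨s, hs, hsm⟩ := h m hm
    exact hE (fun i => hsm i) hs
  · intro h m hm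
    exact ⟨m, h m hm, le_rfl⟩

theorem finrank_mono_ideal {N : ℕ} {E : Set (Fin N → ℕ)} (hE : IsUpperSet E) (d : ℕ) :
    finrank K (piece (Ideal.span ((fun m => monomial m (1 : K)) ''
      {m : Fin N →₀ ℕ | (m : Fin N → ℕ) ∈ E})) d) = cnt E d := by
  rw [← card_cnt, ← finrank_rs (K := K)]
  have h : piece (Ideal.span ((fun m => monomial m (1 : K)) ''
      {m : Fin N →₀ ℕ | (m : Fin N → ℕ) ∈ E})) d
      = restrictSupport K {m : Fin N →₀ ℕ | (m : Fin N → ℕ) ∈ E ∧ m.degree = d} := by
    ext f
    constructor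
    · rintro ⟨h1, h2⟩
      rw [mem_restrictSupport_iff]
      intro m hm
      refine ⟨(mem_mono_iff hE f).mp h1 m hm, ?_⟩
      have h3 : f.IsHomogeneous d := h2
      have := h3 (MvPolynomial.mem_support_iff.mp hm)
      rw [wt_one] at this
      exact this
    · intro h1
      rw [mem_restrictSupport_iff] at h1
      refine ⟨(mem_mono_iff hE f).mpr (fun m hm => (h1 hm).1), ?_⟩
      intro m hm
      rw [wt_one]
      exact (h1 (MvPolynomial.mem_support_iff.mpr hm)).2
  rw [h]

/-- putting `X_0 = 0` -/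
noncomputable def cfA {N : ℕ} : MvPolynomial (Fin (N + 1)) K →ₐ[K] MvPolynomial (Fin N) K :=
  aeval (Fin.cons 0 X : Fin (N + 1) → MvPolynomial (Fin N) K)

theorem cf_zero_eq {N : ℕ} (f : MvPolynomial (Fin (N + 1)) K) : cf 0 f = cfA f := by
  induction f using MvPolynomial.induction_on with
  | C a =>
    ext m
    rw [coeff_cf]
    unfold cfA
    rw [aeval_C, algebraMap_eq, coeff_C, coeff_C]
    by_cases h : m = 0
    · subst h
      rw [if_pos rfl, if_pos]
      ext i
      refine Fin.cases ?_ (fun i => ?_) i <;> simp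
    · rw [if_neg, if_neg (fun h' => h h'.symm)]
      intro h'
      apply h
      ext i
      have := DFunLike.congr_fun h' i.succ
      rw [Finsupp.cons_succ] at this
      exact this.symm
  | add p q hp hq => rw [map_add, map_add, hp, hq]
  | mul_X p i hp =>
    refine Fin.cases ?_ (fun i => ?_) i
    · rw [mul_comm, cf_X_zero, map_mul]
      unfold cfA
      rw [aeval_X, Fin.cons_zero, zero_mul]
    · have h1 : (X i.succ : MvPolynomial (Fin (N + 1)) K)
          = (finSuccEquiv K N).symm (Polynomial.C (X i)) := by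
        rw [AlgEquiv.eq_symm_apply, finSuccEquiv_X_succ]
      have h2 : cf 0 (X i.succ * p) = X i * cf 0 p := by rw [h1, cf_lift]
      have h3 : cfA (X i.succ : MvPolynomial (Fin (N + 1)) K) = X i := by
        unfold cfA
        rw [aeval_X, Fin.cons_succ]
      rw [mul_comm, h2, hp, map_mul, h3]

theorem res_succ (n : ℕ) (f : MvPolynomial (Fin (n + 1 + 2)) K) :
    res (n + 1) f = res n (cf (n := n + 2) 0 f) := by
  rw [cf_zero_eq (N := n + 2)]
  have h : (res (n + 1) : MvPolynomial (Fin (n + 2 + 1)) K →ₐ[K] MvPolynomial (Fin 2) K)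
      = (res n).comp (cfA (N := n + 2)) := by
    apply MvPolynomial.algHom_ext
    intro i
    rw [AlgHom.comp_apply]
    unfold res cfA
    rw [aeval_X]
    refine Fin.cases ?_ (fun i => ?_) i
    · rw [aeval_X, Fin.cons_zero, map_zero, dif_neg]
      simp
    · rw [aeval_X, Fin.cons_succ, aeval_X]
      by_cases hi : n ≤ (i : ℕ)
      · rw [dif_pos (by rw [Fin.val_succ]; omega), dif_pos hi]
        congr 1
        apply Fin.ext
        simp
      · rw [dif_neg (by rw [Fin.val_succ]; omega), dif_neg hi]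
  exact DFunLike.congr_fun h f

theorem res_zero (f : MvPolynomial (Fin (0 + 2)) K) : res 0 f = f := by
  have h : (res 0 : MvPolynomial (Fin (0 + 2)) K →ₐ[K] MvPolynomial (Fin 2) K)
      = AlgHom.id K _ := by
    apply MvPolynomial.algHom_ext
    intro i
    unfold res
    rw [aeval_X, dif_pos (Nat.zero_le _)]
    rfl
  rw [h]; rfl

theorem cf_hom {n a : ℕ} {g : MvPolynomial (Fin (n + 1)) K} (hg : g.IsHomogeneous a) :
    (cf 0 g).IsHomogeneous a := by
  intro m hm
  rw [coeff_cf] at hm
  have := hg hm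
  rw [wt_one, degree_cons] at this
  rw [wt_one]
  omega

theorem good_of {a b : ℕ} : ∀ (n : ℕ) (A : Fin n → ℕ)
    {I : Ideal (MvPolynomial (Fin (n + 2)) K)}, Flag n A I → HasTwo n a b I → Good n A a b I
  | 0, _, I, _, ⟨g, hg, h, hh, h1, h2, h3⟩ => by
      rw [res_zero, res_zero] at h3
      exact ⟨g, hg, h, hh, h1, h2, h3⟩
  | n + 1, A, I, hF, ⟨g, hg, h, hh, h1, h2, h3⟩ => by
      refine ⟨?_, good_of n (Fin.tail A) ?_ ?_⟩
      · intro h0
        obtain ⟨f, hf, hc, hm⟩ := hF 0 h0
        have h4 : f = C (coeff (Finsupp.single (0 : Fin (n + 1 + 2)) (A 0)) f) * X 0 ^ (A 0) := by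
          ext m
          rw [coeff_C_mul, coeff_X_pow]
          by_cases hmm : m ∈ f.support
          · rcases hm m hmm with h5 | ⟨j, hj, _⟩
            · subst h5
              have : (Fin.castAdd 2 0 : Fin (n + 1 + 2)) = 0 := rfl
              rw [this, if_pos rfl, mul_one]
            · exact absurd hj (Fin.not_lt_zero j)
          · rw [notMem_support_iff.mp hmm]
            by_cases h6 : Finsupp.single (0 : Fin (n + 1 + 2)) (A 0) = m
            · subst h6
              exact absurd (notMem_support_iff.mp hmm) hc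
            · rw [if_neg h6, mul_zero]
        have hc' : coeff (Finsupp.single (0 : Fin (n + 1 + 2)) (A 0)) f ≠ 0 := hc
        have h5 : (X 0 : MvPolynomial (Fin (n + 1 + 2)) K) ^ (A 0)
            = C (coeff (Finsupp.single (0 : Fin (n + 1 + 2)) (A 0)) f)⁻¹ * f := by
          conv_rhs => rw [h4]
          rw [← mul_assoc, ← C_mul]
          rw [show (coeff (Finsupp.single (0 : Fin (n + 1 + 2)) (A 0)) (C (coeff
            (Finsupp.single (0 : Fin (n + 1 + 2)) (A 0)) f) * X 0 ^ (A 0)))
            = coeff (Finsupp.single (0 : Fin (n + 1 + 2)) (A 0)) f from by rw [← h4]]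
          rw [inv_mul_cancel₀ hc', C_1, one_mul]
        rw [h5]
        exact I.mul_mem_left _ hf
      · intro i hi
        obtain ⟨f, hf, hc, hm⟩ := hF i.succ hi
        have e1 : Finsupp.single (Fin.castAdd 2 i.succ) (A i.succ)
            = Finsupp.cons 0 (Finsupp.single (Fin.castAdd 2 i) (A i.succ)) := by
          ext j
          refine Fin.cases ?_ (fun j => ?_) j
          · rw [Finsupp.cons_zero]
            exact Finsupp.single_eq_of_ne (by
              intro h; exact absurd (congrArg Fin.val h) (by simp))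
          · rw [Finsupp.cons_succ]
            by_cases hj : j = Fin.castAdd 2 i
            · subst hj
              rw [Finsupp.single_eq_same]
              exact Finsupp.single_eq_same
            · rw [Finsupp.single_eq_of_ne hj]
              exact Finsupp.single_eq_of_ne (fun h => hj (Fin.succ_injective _ h))
        refine ⟨cf (n := n + 2) 0 f, ⟨f, hf, fun j hj => absurd hj (Nat.not_lt_zero j), rfl⟩,
          ?_, ?_⟩
        · rw [coeff_cf]
          rw [e1] at hc
          exact hc
        · intro m hmm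
          rw [MvPolynomial.mem_support_iff, coeff_cf] at hmm
          rcases hm _ (MvPolynomial.mem_support_iff.mpr hmm) with h5 | ⟨j, hj, hj2⟩
          · left
            rw [e1] at h5
            have := congrArg Finsupp.tail h5
            rw [Finsupp.tail_cons, Finsupp.tail_cons] at this
            exact this
          · right
            revert hj hj2
            refine Fin.cases ?_ (fun j => ?_) j
            · intro _ h6
              exact absurd (Finsupp.cons_zero 0 m) h6
            · intro hj h6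
              refine ⟨j, Fin.succ_lt_succ_iff.mp hj, ?_⟩
              intro h7
              apply h6
              exact (Finsupp.cons_succ _ _ _).trans h7
      · rw [res_succ, res_succ] at h3
        exact ⟨_, ⟨g, hg, fun j hj => absurd hj (Nat.not_lt_zero j), rfl⟩,
          _, ⟨h, hh, fun j hj => absurd hj (Nat.not_lt_zero j), rfl⟩,
          cf_hom (n := n + 2) h1, cf_hom (n := n + 2) h2, h3⟩

theorem ev_eq {N : ℕ} (i : Fin N) (k : ℕ) :
    ((Finsupp.single i k : Fin N →₀ ℕ) : Fin N → ℕ) = ev i k := by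
  rw [Finsupp.single_eq_pi_single]; rfl

theorem X_pow_mem {N : ℕ} {E : Set (Fin N → ℕ)} {i : Fin N} {k : ℕ} (h : ev i k ∈ E) :
    (X i : MvPolynomial (Fin N) K) ^ k ∈ Ideal.span ((fun m => monomial m (1 : K)) ''
      {m : Fin N →₀ ℕ | (m : Fin N → ℕ) ∈ E}) := by
  rw [X_pow_eq_monomial]
  apply Ideal.subset_span
  refine ⟨Finsupp.single i k, ?_, rfl⟩
  change ((Finsupp.single i k : Fin N →₀ ℕ) : Fin N → ℕ) ∈ E
  rw [ev_eq]; exact h

/-- the theorem in fixed coordinates -/
theorem main (n : ℕ) (A : Fin n → ℕ) (a b : ℕ) (ha : 0 < a) (hab : a ≤ b)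
    (I : Ideal (MvPolynomial (Fin (n + 2)) K)) (hI : HomIdeal I)
    (hA : Flag n A I) (h2 : HasTwo n a b I) :
    ∃ M : Ideal (MvPolynomial (Fin (n + 2)) K), IsMonomialIdeal M ∧
      (∀ i : Fin n, A i ≠ 0 → X (Fin.castAdd 2 i) ^ (A i) ∈ M) ∧
      X (Fin.natAdd n 0) ^ a ∈ M ∧ X (Fin.natAdd n 1) ^ b ∈ M ∧
      ∀ d, finrank K (piece M d) = finrank K (piece I d) := by
  have hg := good_of n A hA h2
  have hu := Phi_upper hab n A hg
  refine ⟨_, ⟨{m : Fin (n + 2) →₀ ℕ | (m : Fin (n + 2) → ℕ) ∈ Phi b n I}, rfl⟩, ?_, ?_, ?_, ?_⟩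
  · intro i hi
    exact X_pow_mem (Phi_first n A hg i hi)
  · exact X_pow_mem (Phi_last ha hab n A hg).1
  · exact X_pow_mem (Phi_last ha hab n A hg).2
  · intro d
    rw [finrank_mono_ideal hu, Phi_cnt ha n A hI hg d]

end Vale.Agent.P200e
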