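import Vale.Agent.P200e.Defs

namespace Vale.Agent.P200e

open MvPolynomial Module

variable {K : Type} [Field K] {n : ℕ}

/-- The ideal generated by the powers `X_i ^ (A i)`, `i < n`, in `n + 2` variables. -/
noncomputable def powIdeal (n : ℕ) (A : Fin n → ℕ) : Ideal (MvPolynomial (Fin (n + 2)) K) :=
  Ideal.span (Set.range fun i : Fin n => (X (Fin.castAdd 2 i) : MvPolynomial _ K) ^ A i)

end Vale.Agent.P200e
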