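import Vale.Agent.P200e.Coord
import Vale.Agent.P200e.RDefs

namespace Vale.Agent.P200e

open MvPolynomial Module

variable {K : Type} [Field K] {n : ℕ}

/-- the inclusion of the last two variables -/
noncomputable def inc (n : ℕ) : MvPolynomial (Fin 2) K →ₐ[K] MvPolynomial (Fin (n + 2)) K :=
  rename (Fin.natAdd n)

/-- the product of the `X_i ^ (A i - 1)` as a monomial -/
noncomputable def topExp (n : ℕ) (A : Fin n → ℕ) : Fin (n + 2) →₀ ℕ :=
  ∑ i : Fin n, Finsupp.single (Fin.castAdd 2 i) (A i - 1)

theorem topExp_apply (A : Fin n → ℕ) (i : Fin n) : topExp n A (Fin.castAdd 2 i) = A i - 1 := by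
  unfold topExp
  rw [Finsupp.finsetSum_apply, Finset.sum_eq_single i]
  · exact Finsupp.single_eq_same
  · intro j _ hj
    exact Finsupp.single_eq_of_ne (fun h => hj (Fin.castAdd_injective _ _ h).symm)
  · intro h; exact absurd (Finset.mem_univ i) h

theorem mem_powIdeal (A : Fin n → ℕ) (f : MvPolynomial (Fin (n + 2)) K) :
    f ∈ powIdeal n A ↔ ∀ m ∈ f.support, ∃ i : Fin n, A i ≤ m (Fin.castAdd 2 i) := by
  have h : (powIdeal n A : Ideal (MvPolynomial (Fin (n + 2)) K))
      = Ideal.span ((fun m => monomial m (1 : K)) ''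
        (Set.range fun i : Fin n => Finsupp.single (Fin.castAdd 2 i) (A i))) := by
    unfold powIdeal
    rw [← Set.range_comp]
    congr 2
    funext i
    exact X_pow_eq_monomial
  rw [h, mem_ideal_span_monomial_image]
  constructor
  · intro h1 m hm
    obtain ⟨_, ⟨i, rfl⟩, hi⟩ := h1 m hm
    exact ⟨i, by simpa using hi (Fin.castAdd 2 i)⟩
  · intro h1 m hm
    obtain ⟨i, hi⟩ := h1 m hm
    exact ⟨_, ⟨i, rfl⟩, Finsupp.single_le_iff.mpr hi⟩

theorem res_inc (s : MvPolynomial (Fin 2) K) : res n (inc n s) = s := by
  have h : (res n).comp (inc n) = AlgHom.id K (MvPolynomial (Fin 2) K) := by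
    apply MvPolynomial.algHom_ext
    intro i
    rw [AlgHom.comp_apply]
    unfold inc res
    rw [rename_X, aeval_X, dif_pos (by simp)]
    change X _ = X i
    congr 1
    apply Fin.ext
    simp
  exact DFunLike.congr_fun h s

theorem res_monomial_zero {m : Fin (n + 2) →₀ ℕ} {i : Fin n} (h : m (Fin.castAdd 2 i) ≠ 0)
    (c : K) : res n (monomial m c) = 0 := by
  have h2 : m = Finsupp.single (Fin.castAdd 2 i) 1 + (m - Finsupp.single (Fin.castAdd 2 i) 1) := by
    rw [add_tsub_cancel_of_le]
    rw [Finsupp.single_le_iff]; omega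
  rw [h2, ← one_mul c, ← monomial_mul, map_mul]
  have h3 : res n (monomial (Finsupp.single (Fin.castAdd 2 i) 1) (1 : K)) = 0 := by
    change res n (X (Fin.castAdd 2 i)) = 0
    unfold res
    rw [aeval_X, dif_neg]
    simp
  rw [h3, zero_mul]

/-- multiplication by the top monomial -/
noncomputable def tp (A : Fin n → ℕ) : MvPolynomial (Fin (n + 2)) K := monomial (topExp n A) 1

theorem tp_sub (A : Fin n → ℕ) (f : MvPolynomial (Fin (n + 2)) K) :
    tp A * f - tp A * inc n (res n f) ∈ powIdeal n A := by
  induction f using MvPolynomial.induction_on' with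
  | monomial m c =>
    by_cases h : ∃ i : Fin n, m (Fin.castAdd 2 i) ≠ 0
    · obtain ⟨i, hi⟩ := h
      rw [res_monomial_zero hi, map_zero, mul_zero, sub_zero, mem_powIdeal]
      intro m' hm'
      unfold tp at hm'
      rw [monomial_mul] at hm'
      have := Finset.mem_singleton.mp (support_monomial_subset hm')
      refine ⟨i, ?_⟩
      rw [this, Finsupp.add_apply, topExp_apply]
      omega
    · push Not at h
      have h2 : inc n (res n (monomial m c)) = monomial m c := by
        have h3 : monomial m c = inc n (monomial (m.comapDomain (Fin.natAdd n)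
            (Fin.natAdd_injective _ _).injOn) c) := by
          have hmm : Finsupp.mapDomain (Fin.natAdd n) (m.comapDomain (Fin.natAdd n)
              (Fin.natAdd_injective 2 n).injOn) = m := by
            ext j
            refine Fin.addCases (fun j => ?_) (fun j => ?_) j
            · rw [h j, Finsupp.mapDomain_of_notMem_range]
              rintro ⟨k, hk⟩
              have := congrArg Fin.val hk
              simp at this
              omega
            · rw [Finsupp.mapDomain_apply (Fin.natAdd_injective _ _)]
              rfl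
          unfold inc
          rw [rename_monomial, hmm]
        rw [h3, res_inc]
      rw [h2, sub_self]
      exact zero_mem _
  | add p q hp hq =>
    have : tp A * (p + q) - tp A * inc n (res n (p + q))
        = (tp A * p - tp A * inc n (res n p)) + (tp A * q - tp A * inc n (res n q)) := by
      rw [map_add, map_add]; ring
    rw [this]
    exact add_mem hp hq

theorem coeff_inc (s : MvPolynomial (Fin 2) K) {m : Fin (n + 2) →₀ ℕ}
    (hm : m ∈ (inc n s).support) (i : Fin n) : m (Fin.castAdd 2 i) = 0 := by
  classical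
  unfold inc at hm
  rw [support_rename_of_injective (Fin.natAdd_injective _ _)] at hm
  obtain ⟨m', _, rfl⟩ := Finset.mem_image.mp hm
  rw [Finsupp.mapDomain_of_notMem_range]
  rintro ⟨k, hk⟩
  have := congrArg Fin.val hk
  simp at this
  omega

theorem tp_inj (A : Fin n → ℕ) (hA : ∀ i, 0 < A i) {s : MvPolynomial (Fin 2) K}
    (h : tp A * inc n s ∈ powIdeal n A) : s = 0 := by
  have h0 : tp A * inc n s = 0 := by
    ext m
    by_contra hm
    rw [coeff_zero] at hm
    obtain ⟨i, hi⟩ := (mem_powIdeal A _).mp h m (MvPolynomial.mem_support_iff.mpr hm)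
    unfold tp at hm
    rw [coeff_monomial_mul'] at hm
    split_ifs at hm with hle
    · rw [one_mul] at hm
      have h1 := coeff_inc s (MvPolynomial.mem_support_iff.mpr hm) i
      rw [Finsupp.tsub_apply, topExp_apply] at h1
      have := hA i
      omega
    · exact hm rfl
  have h1 : (tp A : MvPolynomial (Fin (n + 2)) K) ≠ 0 := by
    unfold tp
    rw [Ne, monomial_eq_zero]
    exact one_ne_zero
  have h2 := (mul_eq_zero.mp h0).resolve_left h1
  have h3 := congrArg (res n) h2
  rw [res_inc, map_zero] at h3
  exact h3

theorem colon_eq (A : Fin n → ℕ) (r : MvPolynomial (Fin (n + 2)) K)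
    (h : ∀ i : Fin n, X (Fin.castAdd 2 i) * r ∈ powIdeal n A) :
    ∃ s : MvPolynomial (Fin 2) K, r - tp A * inc n s ∈ powIdeal n A := by
  have key : ∀ m ∈ r.support, ∃ s : MvPolynomial (Fin 2) K,
      monomial m (coeff m r) - tp A * inc n s ∈ powIdeal n A := by
    intro m hm
    by_cases h1 : ∃ i : Fin n, A i ≤ m (Fin.castAdd 2 i)
    · refine ⟨0, ?_⟩
      rw [map_zero, mul_zero, sub_zero, mem_powIdeal]
      intro m' hm'
      rw [Finset.mem_singleton.mp (support_monomial_subset hm')]
      exact h1
    · push Not at h1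
      have h2 : ∀ i : Fin n, m (Fin.castAdd 2 i) = A i - 1 := by
        intro i
        have h3 : m + Finsupp.single (Fin.castAdd 2 i) 1 ∈ (X (Fin.castAdd 2 i) * r).support := by
          rw [MvPolynomial.mem_support_iff, mul_comm, coeff_mul_X]
          exact MvPolynomial.mem_support_iff.mp hm
        obtain ⟨j, hj⟩ := (mem_powIdeal A _).mp (h i) _ h3
        by_cases hji : j = i
        · subst hji
          rw [Finsupp.add_apply, Finsupp.single_eq_same] at hj
          have := h1 j
          omega
        · rw [Finsupp.add_apply, Finsupp.single_eq_of_ne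
            (fun h => hji (Fin.castAdd_injective _ _ h)), add_zero] at hj
          have := h1 j
          omega
      have h4 : topExp n A ≤ m := by
        intro j
        refine Fin.addCases (fun j => ?_) (fun j => ?_) j
        · rw [topExp_apply, h2]
        · have : topExp n A (Fin.natAdd n j) = 0 := by
            unfold topExp
            rw [Finsupp.finsetSum_apply]
            apply Finset.sum_eq_zero
            intro i _
            apply Finsupp.single_eq_of_ne
            intro h
            have := congrArg Fin.val h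
            simp at this
            omega
          rw [this]
          exact Nat.zero_le _
      refine ⟨res n (monomial (m - topExp n A) (coeff m r)), ?_⟩
      have h5 := tp_sub A (monomial (m - topExp n A) (coeff m r))
      have h6 : tp A * monomial (m - topExp n A) (coeff m r) = monomial m (coeff m r) := by
        unfold tp
        rw [monomial_mul, one_mul, add_tsub_cancel_of_le h4]
      rw [h6] at h5
      exact h5
  choose! s hs using key
  refine ⟨∑ m ∈ r.support, s m, ?_⟩
  have h1 : r - tp A * inc n (∑ m ∈ r.support, s m)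
      = ∑ m ∈ r.support, (monomial m (coeff m r) - tp A * inc n (s m)) := by
    rw [Finset.sum_sub_distrib, map_sum, Finset.mul_sum]
    congr 1
    exact (support_sum_monomial_coeff r).symm
  rw [h1]
  exact Ideal.sum_mem _ hs

theorem relPrime_of_regular (A : Fin n → ℕ) (hA : ∀ i, 0 < A i)
    (g h : MvPolynomial (Fin (n + 2)) K)
    (hg : ∀ f, g * f ∈ powIdeal n A → f ∈ powIdeal n A)
    (hh : ∀ f, h * f ∈ powIdeal n A ⊔ Ideal.span {g} → f ∈ powIdeal n A ⊔ Ideal.span {g}) :
    IsRelPrime (res n g) (res n h) := by
  have hG : res n g ≠ 0 := by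
    intro h0
    have h1 := tp_sub A g
    rw [h0, map_zero, mul_zero, sub_zero, mul_comm] at h1
    have h2 := hg _ h1
    have h3 : tp A * inc n (1 : MvPolynomial (Fin 2) K) ∈ powIdeal n A := by
      rw [map_one, mul_one]; exact h2
    exact one_ne_zero (tp_inj A hA h3)
  rintro p ⟨G', hG'⟩ ⟨H', hH'⟩
  have h1 : h * (tp A * inc n G') ∈ powIdeal n A ⊔ Ideal.span {g} := by
    have e1 := tp_sub A h
    have e2 := tp_sub A g
    have e3 : h * (tp A * inc n G') = (tp A * h - tp A * inc n (res n h)) * inc n G'
        - (tp A * g - tp A * inc n (res n g)) * inc n H' + (tp A * inc n H') * g := by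
      rw [hG', hH', map_mul, map_mul]; ring
    rw [e3]
    refine add_mem (sub_mem ?_ ?_) ?_
    · exact Ideal.mem_sup_left (Ideal.mul_mem_right _ _ e1)
    · exact Ideal.mem_sup_left (Ideal.mul_mem_right _ _ e2)
    · exact Ideal.mem_sup_right (Ideal.mul_mem_left _ _ (Ideal.mem_span_singleton_self g))
  obtain ⟨q, hq, w, hw, hqw⟩ := Submodule.mem_sup.mp (hh _ h1)
  obtain ⟨r, rfl⟩ := Ideal.mem_span_singleton'.mp hw
  have h2 : ∀ i : Fin n, X (Fin.castAdd 2 i) * r ∈ powIdeal n A := by
    intro i
    apply hg
    have e4 : g * (X (Fin.castAdd 2 i) * r) = X (Fin.castAdd 2 i) * (tp A * inc n G')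
        - X (Fin.castAdd 2 i) * q := by
      rw [← hqw]; ring
    rw [e4]
    refine sub_mem ?_ (Ideal.mul_mem_left _ _ hq)
    have e5 := tp_sub A (X (Fin.castAdd 2 i) : MvPolynomial (Fin (n + 2)) K)
    have e6 : res n (X (Fin.castAdd 2 i) : MvPolynomial (Fin (n + 2)) K) = 0 := by
      unfold res
      rw [aeval_X, dif_neg]
      simp
    rw [e6, map_zero, mul_zero, sub_zero] at e5
    have e7 : X (Fin.castAdd 2 i) * (tp A * inc n G')
        = (tp A * X (Fin.castAdd 2 i)) * inc n G' := by ring
    rw [e7]
    exact Ideal.mul_mem_right _ _ e5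
  obtain ⟨s, hs⟩ := colon_eq A r h2
  have h3 : tp A * inc n (G' - res n g * s) ∈ powIdeal n A := by
    have e8 : tp A * inc n (G' - res n g * s) = q + g * (r - tp A * inc n s)
        + (tp A * g - tp A * inc n (res n g)) * inc n s := by
      rw [map_sub, map_mul, mul_sub, ← hqw]; ring
    rw [e8]
    exact add_mem (add_mem hq (Ideal.mul_mem_left _ _ hs)) (Ideal.mul_mem_right _ _ (tp_sub A g))
  have h4 := sub_eq_zero.mp (tp_inj A hA h3)
  have h5 : res n g * (p * s) = res n g * 1 := by
    rw [mul_one]
    conv_rhs => rw [hG', h4]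
    ring
  exact IsUnit.of_mul_eq_one s (mul_left_cancel₀ hG h5)

end Vale.Agent.P200e
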