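import Vale.Agent.P200e.Reg
import Vale.Agent.P200e.GMain

namespace Vale.Agent.P200e

open MvPolynomial Module

variable {K : Type} [Field K]

theorem mainReg (n : ℕ) (A : Fin n → ℕ) (a b : ℕ) (hA : ∀ i, 0 < A i) (ha : 0 < a) (hab : a ≤ b)
    (g h : MvPolynomial (Fin (n + 2)) K) (hga : g.IsHomogeneous a) (hhb : h.IsHomogeneous b)
    (hg : ∀ f, g * f ∈ powIdeal n A → f ∈ powIdeal n A)
    (hh : ∀ f, h * f ∈ powIdeal n A ⊔ Ideal.span {g} → f ∈ powIdeal n A ⊔ Ideal.span {g})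
    (φ : MvPolynomial (Fin (n + 2)) K ≃ₐ[K] MvPolynomial (Fin (n + 2)) K)
    (hφ : ∀ i, (φ (X i)).IsHomogeneous 1)
    (I : Ideal (MvPolynomial (Fin (n + 2)) K)) (hI : HomIdeal I)
    (h1 : ∀ i : Fin n, φ (X (Fin.castAdd 2 i)) ^ A i ∈ I) (h2 : φ g ∈ I) (h3 : φ h ∈ I) :
    ∃ M : Ideal (MvPolynomial (Fin (n + 2)) K), IsMonomialIdeal M ∧
      (∀ i : Fin n, X (Fin.castAdd 2 i) ^ (A i) ∈ M) ∧
      X (Fin.natAdd n 0) ^ a ∈ M ∧ X (Fin.natAdd n 1) ^ b ∈ M ∧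
      ∀ d, finrank K (piece M d) = finrank K (piece I d) := by
  have hF : Flag n A (I.comap φ) := by
    intro i hi
    refine ⟨X (Fin.castAdd 2 i) ^ A i, ?_, ?_, ?_⟩
    · rw [Ideal.mem_comap, map_pow]
      exact h1 i
    · rw [coeff_X_pow, if_pos rfl]
      exact one_ne_zero
    · intro m hm
      left
      rw [X_pow_eq_monomial] at hm
      exact Finset.mem_singleton.mp (support_monomial_subset hm)
  have h4 : HasTwo n a b (I.comap φ) :=
    ⟨g, h2, h, h3, hga, hhb, relPrime_of_regular A hA g h hg hh⟩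
  obtain ⟨M, m1, m2, m3, m4, m5⟩ := main' n A a b ha hab φ hφ I hI hF h4
  exact ⟨M, m1, fun i => m2 i (hA i).ne', m3, m4, m5⟩

end Vale.Agent.P200e
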