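import Vale.Agent.P200e.Base

namespace Vale.Agent.P200e

open MvPolynomial Module

variable {K : Type} [Field K]

/-- the coefficient of `X_0 ^ k`, as a linear map -/
noncomputable def cf {n : ℕ} (k : ℕ) :
    MvPolynomial (Fin (n + 1)) K →ₗ[K] MvPolynomial (Fin n) K where
  toFun f := (finSuccEquiv K n f).coeff k
  map_add' f g := by simp
  map_smul' c f := by simp

theorem cf_apply {n : ℕ} (k : ℕ) (f : MvPolynomial (Fin (n + 1)) K) :
    cf k f = (finSuccEquiv K n f).coeff k := rfl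

theorem coeff_cf {n : ℕ} (k : ℕ) (f : MvPolynomial (Fin (n + 1)) K) (m : Fin n →₀ ℕ) :
    coeff m (cf k f) = coeff (m.cons k) f := finSuccEquiv_coeff_coeff m f k

theorem degree_cons {n : ℕ} (k : ℕ) (m : Fin n →₀ ℕ) : (m.cons k).degree = k + m.degree := by
  rw [Finsupp.degree_eq_sum, Finsupp.degree_eq_sum, Fin.sum_univ_succ]
  simp

theorem wt_one {n : ℕ} (m : Fin n →₀ ℕ) : Finsupp.weight (1 : Fin n → ℕ) m = m.degree := by
  rw [Finsupp.degree_eq_weight_one]; rfl

theorem cf_lift {n : ℕ} (k : ℕ) (c : MvPolynomial (Fin n) K) (f : MvPolynomial (Fin (n + 1)) K) :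
    cf k ((finSuccEquiv K n).symm (Polynomial.C c) * f) = c * cf k f := by
  rw [cf_apply, map_mul, AlgEquiv.apply_symm_apply, Polynomial.coeff_C_mul]
  rfl

theorem cf_X_succ {n : ℕ} (k : ℕ) (f : MvPolynomial (Fin (n + 1)) K) :
    cf (k + 1) (X 0 * f) = cf k f := by
  rw [cf_apply, map_mul, finSuccEquiv_X_zero, Polynomial.coeff_X_mul]
  rfl

theorem cf_X_zero {n : ℕ} (f : MvPolynomial (Fin (n + 1)) K) :
    cf 0 (X 0 * f) = 0 := by
  rw [cf_apply, map_mul, finSuccEquiv_X_zero, Polynomial.mul_coeff_zero, Polynomial.coeff_X_zero,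
    zero_mul]

/-- `k`-th slice: the ideal of all `p` with `X_0 ^ k * p + (terms divisible by X_0 ^ (k+1)) ∈ I` -/
noncomputable def slice {n : ℕ} (I : Ideal (MvPolynomial (Fin (n + 1)) K)) (k : ℕ) :
    Ideal (MvPolynomial (Fin n) K) where
  carrier := {p | ∃ f ∈ I, (∀ j < k, cf j f = 0) ∧ cf k f = p}
  add_mem' := by
    rintro p q ⟨f, hf, h0, rfl⟩ ⟨g, hg, h1, rfl⟩
    refine ⟨f + g, I.add_mem hf hg, ?_, ?_⟩
    · intro j hj
      rw [map_add, h0 j hj, h1 j hj, add_zero]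
    · rw [map_add]
  zero_mem' := ⟨0, I.zero_mem, fun j _ => by rw [map_zero], by rw [map_zero]⟩
  smul_mem' := by
    rintro c p ⟨f, hf, h0, rfl⟩
    refine ⟨(finSuccEquiv K n).symm (Polynomial.C c) * f, I.mul_mem_left _ hf, ?_, ?_⟩
    · intro j hj
      rw [cf_lift, h0 j hj, mul_zero]
    · rw [cf_lift]
      rfl

theorem mem_slice {n : ℕ} {I : Ideal (MvPolynomial (Fin (n + 1)) K)} {k : ℕ}
    {p : MvPolynomial (Fin n) K} :
    p ∈ slice I k ↔ ∃ f ∈ I, (∀ j < k, cf j f = 0) ∧ cf k f = p := Iff.rfl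

theorem slice_mono {n : ℕ} {I J : Ideal (MvPolynomial (Fin (n + 1)) K)} (h : I ≤ J) (k : ℕ) :
    slice I k ≤ slice J k := by
  rintro p ⟨f, hf, h0, hk⟩
  exact ⟨f, h hf, h0, hk⟩

theorem slice_succ {n : ℕ} (I : Ideal (MvPolynomial (Fin (n + 1)) K)) (k : ℕ) :
    slice I k ≤ slice I (k + 1) := by
  rintro p ⟨f, hf, h0, hk⟩
  refine ⟨X 0 * f, I.mul_mem_left _ hf, ?_, ?_⟩
  · intro j hj
    cases j with
    | zero => exact cf_X_zero f
    | succ j => rw [cf_X_succ]; exact h0 j (by omega)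
  · rw [cf_X_succ]; exact hk

theorem slice_mono' {n : ℕ} (I : Ideal (MvPolynomial (Fin (n + 1)) K)) {k l : ℕ} (h : k ≤ l) :
    slice I k ≤ slice I l := by
  induction l, h using Nat.le_induction with
  | base => exact le_rfl
  | succ l _ ih => exact ih.trans (slice_succ I l)

theorem cf_comp_zero {n : ℕ} {j D : ℕ} {f : MvPolynomial (Fin (n + 1)) K} (h : cf j f = 0) :
    cf j (homogeneousComponent D f) = 0 := by
  ext m
  rw [coeff_cf, coeff_homogeneousComponent, ← coeff_cf, h]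
  simp

theorem cf_comp {n : ℕ} (k d : ℕ) (f : MvPolynomial (Fin (n + 1)) K) :
    cf k (homogeneousComponent (d + k) f) = homogeneousComponent d (cf k f) := by
  ext m
  rw [coeff_cf, coeff_homogeneousComponent, coeff_homogeneousComponent, coeff_cf, degree_cons]
  by_cases h : m.degree = d
  · rw [if_pos h, if_pos (by omega)]
  · rw [if_neg h, if_neg (by omega)]

theorem slice_hom {n : ℕ} {I : Ideal (MvPolynomial (Fin (n + 1)) K)} (hI : HomIdeal I) (k : ℕ) :
    HomIdeal (slice I k) := by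
  rintro p ⟨f, hf, h0, rfl⟩ d
  exact ⟨homogeneousComponent (d + k) f, hI f hf _, fun j hj => cf_comp_zero (h0 j hj),
    cf_comp k d f⟩

/-- the part of `piece I D` divisible by `X_0 ^ k` -/
noncomputable def filt {n : ℕ} (I : Ideal (MvPolynomial (Fin (n + 1)) K)) (D k : ℕ) :
    Submodule K (MvPolynomial (Fin (n + 1)) K) where
  carrier := {f | f ∈ piece I D ∧ ∀ j < k, cf j f = 0}
  add_mem' := by
    rintro f g ⟨hf, h0⟩ ⟨hg, h1⟩
    refine ⟨add_mem hf hg, fun j hj => ?_⟩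
    rw [map_add, h0 j hj, h1 j hj, add_zero]
  zero_mem' := ⟨zero_mem _, fun j _ => map_zero _⟩
  smul_mem' := by
    rintro c f ⟨hf, h0⟩
    refine ⟨Submodule.smul_mem _ c hf, fun j hj => ?_⟩
    rw [map_smul, h0 j hj, smul_zero]

theorem filt_le {n : ℕ} (I : Ideal (MvPolynomial (Fin (n + 1)) K)) (D k : ℕ) :
    filt I D k ≤ piece I D := fun _ h => h.1

instance filt_finite {n : ℕ} (I : Ideal (MvPolynomial (Fin (n + 1)) K)) (D k : ℕ) :
    FiniteDimensional K (filt I D k) := Submodule.finiteDimensional_of_le (filt_le I D k)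

theorem filt_zero {n : ℕ} (I : Ideal (MvPolynomial (Fin (n + 1)) K)) (D : ℕ) :
    filt I D 0 = piece I D := by
  ext f
  exact ⟨fun h => h.1, fun h => ⟨h, fun j hj => absurd hj (Nat.not_lt_zero j)⟩⟩

theorem cons_tail {n : ℕ} (m : Fin (n + 1) →₀ ℕ) : (m.tail).cons (m 0) = m :=
  Finsupp.cons_tail m

theorem filt_last {n : ℕ} (I : Ideal (MvPolynomial (Fin (n + 1)) K)) (D : ℕ) :
    filt I D (D + 1) = ⊥ := by
  rw [Submodule.eq_bot_iff]
  rintro f ⟨⟨_, hf⟩, h0⟩
  have hf' : f.IsHomogeneous D := hf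
  ext m
  by_contra hm
  rw [coeff_zero] at hm
  have hd : m.degree = D := by
    have := hf' hm
    rw [wt_one] at this
    exact this
  have hle : m 0 < D + 1 := by
    rw [← cons_tail m, degree_cons] at hd
    omega
  apply hm
  rw [← cons_tail m, ← coeff_cf, h0 _ hle, coeff_zero]

theorem filt_map {n : ℕ} {I : Ideal (MvPolynomial (Fin (n + 1)) K)} (hI : HomIdeal I)
    {D k : ℕ} (hk : k ≤ D) : (filt I D k).map (cf k) = piece (slice I k) (D - k) := by
  ext p
  constructor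
  · rintro ⟨f, ⟨⟨hf, hfD⟩, h0⟩, rfl⟩
    refine ⟨⟨f, hf, h0, rfl⟩, ?_⟩
    have hfD' : f.IsHomogeneous D := hfD
    intro m hm
    rw [coeff_cf] at hm
    have := hfD' hm
    rw [wt_one, degree_cons] at this
    rw [wt_one]
    omega
  · rintro ⟨⟨f, hf, h0, rfl⟩, hp⟩
    have hp' : (cf k f).IsHomogeneous (D - k) := hp
    refine ⟨homogeneousComponent D f, ⟨⟨hI f hf D, homogeneousComponent_isHomogeneous D f⟩,
      fun j hj => cf_comp_zero (h0 j hj)⟩, ?_⟩
    have h1 := cf_comp k (D - k) f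
    have h2 : D - k + k = D := by omega
    rw [h2] at h1
    rw [h1]
    exact homogeneousComponent_of_mem hp' |>.trans (if_pos rfl)

theorem filt_inf {n : ℕ} (I : Ideal (MvPolynomial (Fin (n + 1)) K)) (D k : ℕ) :
    filt I D k ⊓ LinearMap.ker (cf k) = filt I D (k + 1) := by
  ext f
  constructor
  · rintro ⟨⟨h1, h2⟩, h3⟩
    refine ⟨h1, fun j hj => ?_⟩
    rcases Nat.lt_succ_iff_lt_or_eq.mp hj with h | rfl
    · exact h2 j h
    · exact h3
  · rintro ⟨h1, h2⟩
    exact ⟨⟨h1, fun j hj => h2 j (by omega)⟩, h2 k (by omega)⟩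

theorem filt_step {n : ℕ} {I : Ideal (MvPolynomial (Fin (n + 1)) K)} (hI : HomIdeal I)
    {D k : ℕ} (hk : k ≤ D) : finrank K (filt I D k)
      = finrank K (piece (slice I k) (D - k)) + finrank K (filt I D (k + 1)) := by
  have h := LinearMap.finrank_range_add_finrank_ker ((cf k).domRestrict (filt I D k))
  rw [LinearMap.range_domRestrict, filt_map hI hk, LinearMap.ker_domRestrict,
    ← Submodule.finrank_map_subtype_eq, Submodule.map_comap_subtype, filt_inf] at h
  exact h.symm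

theorem filt_sum {n : ℕ} {I : Ideal (MvPolynomial (Fin (n + 1)) K)} (hI : HomIdeal I)
    (D : ℕ) : ∀ l ≤ D + 1, finrank K (piece I D)
      = ∑ k ∈ Finset.range l, finrank K (piece (slice I k) (D - k)) + finrank K (filt I D l) := by
  intro l
  induction l with
  | zero => intro _; rw [Finset.range_zero, Finset.sum_empty, zero_add, filt_zero]
  | succ l ih =>
    intro hl
    rw [ih (by omega), filt_step hI (by omega), Finset.sum_range_succ]
    ring

theorem finrank_slices {n : ℕ} {I : Ideal (MvPolynomial (Fin (n + 1)) K)} (hI : HomIdeal I)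
    (D : ℕ) : finrank K (piece I D)
      = ∑ k ∈ Finset.range (D + 1), finrank K (piece (slice I k) (D - k)) := by
  rw [filt_sum hI D (D + 1) le_rfl, filt_last, finrank_bot, add_zero]

instance fin_exp {n : ℕ} (E : Set (Fin n → ℕ)) (d : ℕ) :
    Finite {e : Fin n → ℕ // e ∈ E ∧ ∑ i, e i = d} := by
  refine Finite.of_injective (β := Fin n → Fin (d + 1)) (fun e i => ⟨e.1 i, ?_⟩) ?_
  · have h := e.2.2
    have := Finset.single_le_sum (f := e.1) (fun j _ => Nat.zero_le _) (Finset.mem_univ i)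
    omega
  · intro e e' h
    apply Subtype.ext
    funext i
    have := congrFun h i
    exact congrArg Fin.val this

theorem cnt_slices {n : ℕ} (F : ℕ → Set (Fin n → ℕ)) (D : ℕ) :
    cnt {e : Fin (n + 1) → ℕ | Fin.tail e ∈ F (e 0)} D
      = ∑ k ∈ Finset.range (D + 1), cnt (F k) (D - k) := by
  rw [Finset.sum_range]
  unfold cnt
  rw [← Nat.card_sigma]
  apply Nat.card_congr
  refine ⟨fun e => ⟨⟨e.1 0, ?_⟩, ⟨Fin.tail e.1, ?_⟩⟩,
    fun s => ⟨Fin.cons (s.1 : ℕ) s.2.1, ?_⟩, ?_, ?_⟩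
  · have h := e.2.2
    rw [Fin.sum_univ_succ] at h
    omega
  · have h := e.2.2
    rw [Fin.sum_univ_succ] at h
    refine ⟨e.2.1, ?_⟩
    change ∑ i, e.1 (Fin.succ i) = D - e.1 0
    omega
  · refine ⟨?_, ?_⟩
    · change Fin.tail (Fin.cons (s.1 : ℕ) s.2.1 : Fin (n + 1) → ℕ) ∈ F s.1
      rw [Fin.tail_cons]
      exact s.2.2.1
    · rw [Fin.sum_univ_succ]
      simp only [Fin.cons_zero, Fin.cons_succ]
      rw [s.2.2.2]
      have := s.1.2
      omega
  · intro e
    apply Subtype.ext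
    exact Fin.cons_self_tail e.1
  · rintro ⟨k, e, he⟩
    rfl

end Vale.Agent.P200e
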