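import Vale.Agent.P200e.Defs

namespace Vale.Agent.P200e

open MvPolynomial Module

variable {K : Type} [Field K]

/-- multiplication by a polynomial as a linear map -/
noncomputable def ml {n : ℕ} (p : MvPolynomial (Fin n) K) :
    MvPolynomial (Fin n) K →ₗ[K] MvPolynomial (Fin n) K := LinearMap.mulLeft K p

theorem ml_apply {n : ℕ} (p q : MvPolynomial (Fin n) K) : ml p q = p * q := rfl

theorem ml_inj {n : ℕ} {p : MvPolynomial (Fin n) K} (hp : p ≠ 0) :
    Function.Injective (ml p) := by
  intro a b h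
  exact mul_left_cancel₀ hp h

theorem finrank_map_ml {n : ℕ} {p : MvPolynomial (Fin n) K} (hp : p ≠ 0)
    (V : Submodule K (MvPolynomial (Fin n) K)) : finrank K (V.map (ml p)) = finrank K V :=
  (LinearEquiv.finrank_eq (Submodule.equivMapOfInjective (ml p) (ml_inj hp) V)).symm

noncomputable abbrev x : MvPolynomial (Fin 2) K := X 0
noncomputable abbrev y : MvPolynomial (Fin 2) K := X 1

theorem prime_x : Prime (x : MvPolynomial (Fin 2) K) := X_prime
theorem prime_y : Prime (y : MvPolynomial (Fin 2) K) := X_prime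

theorem not_x_y : ¬ (x : MvPolynomial (Fin 2) K) ∣ y := by
  intro h
  rw [X_dvd_X] at h
  exact absurd h (by decide)

theorem not_y_x : ¬ (y : MvPolynomial (Fin 2) K) ∣ x := by
  intro h
  rw [X_dvd_X] at h
  exact absurd h (by decide)

/-- `x V + y V` -/
noncomputable def up (V : Submodule K (MvPolynomial (Fin 2) K)) :
    Submodule K (MvPolynomial (Fin 2) K) := V.map (ml x) ⊔ V.map (ml y)

theorem eq_zero_of_pow_dvd (u : MvPolynomial (Fin 2) K) (h : ∀ k : ℕ, x ^ k ∣ u) : u = 0 := by
  by_contra hu
  obtain ⟨v, hv⟩ := h (u.totalDegree + 1)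
  have hv0 : v ≠ 0 := by rintro rfl; simp at hv; exact hu hv
  have h1 : u.totalDegree = (x ^ (u.totalDegree + 1) : MvPolynomial (Fin 2) K).totalDegree
      + v.totalDegree := by
    conv_lhs => rw [hv]
    exact totalDegree_mul_of_isDomain (pow_ne_zero _ (X_ne_zero _)) hv0
  have h2 : (x ^ (u.totalDegree + 1) : MvPolynomial (Fin 2) K).totalDegree
      = u.totalDegree + 1 := by
    exact totalDegree_X_pow _ _
  omega

theorem up_finite (V : Submodule K (MvPolynomial (Fin 2) K)) [FiniteDimensional K V] :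
    FiniteDimensional K (up V) := by
  unfold up
  infer_instance

theorem finrank_up_ge (U : Submodule K (MvPolynomial (Fin 2) K)) [FiniteDimensional K U]
    (hU : U ≠ ⊥) : finrank K U + 1 ≤ finrank K (up U) := by
  by_contra hcon
  have := up_finite U
  have hle : U.map (ml x) ≤ up U := le_sup_left
  have h1 : finrank K (U.map (ml x)) = finrank K U := finrank_map_ml (X_ne_zero _) U
  have heq : U.map (ml x) = up U :=
    Submodule.eq_of_le_of_finrank_le hle (by omega)
  have hy : U.map (ml y) ≤ U.map (ml x) := by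
    rw [heq]; exact le_sup_right
  have hk : ∀ k : ℕ, ∀ u ∈ U, x ^ k ∣ u := by
    intro k
    induction k with
    | zero => intro u _; simp
    | succ k ih =>
      intro u hu
      obtain ⟨u', hu', h'⟩ := hy (Submodule.mem_map_of_mem hu)
      rw [ml_apply, ml_apply] at h'
      have h3 : x ^ (k + 1) ∣ y * u := by
        rw [← h', pow_succ']
        exact mul_dvd_mul_left _ (ih u' hu')
      exact prime_x.pow_dvd_of_dvd_mul_left (k + 1) not_x_y h3
  apply hU
  rw [Submodule.eq_bot_iff]
  intro u hu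
  exact eq_zero_of_pow_dvd u (fun k => hk k u hu)

/-- `U = {u : x u, y u in V}` -/
noncomputable def down (V : Submodule K (MvPolynomial (Fin 2) K)) :
    Submodule K (MvPolynomial (Fin 2) K) := V.comap (ml x) ⊓ V.comap (ml y)

theorem inf_eq (V : Submodule K (MvPolynomial (Fin 2) K)) :
    V.map (ml x) ⊓ V.map (ml y) = (down V).map (ml (x * y)) := by
  ext w
  constructor
  · rintro ⟨⟨v1, hv1, h1⟩, ⟨v2, hv2, h2⟩⟩
    rw [ml_apply] at h1 h2
    have hd : y ∣ x * v1 := ⟨v2, by rw [h1, h2]⟩
    obtain ⟨u, hu⟩ := (prime_y.dvd_or_dvd hd).resolve_left not_y_x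
    have hv2' : v2 = x * u := by
      apply mul_left_cancel₀ (X_ne_zero (1 : Fin 2) : (X 1 : MvPolynomial (Fin 2) K) ≠ 0)
      have : y * v2 = y * (x * u) := by
        rw [h2, ← h1, hu]; ring
      exact this
    refine ⟨u, ⟨?_, ?_⟩, ?_⟩
    · change x * u ∈ V
      rw [← hv2']; exact hv2
    · change y * u ∈ V
      rw [← hu]; exact hv1
    · rw [ml_apply, ← h1, hu]; ring
  · rintro ⟨u, ⟨hu1, hu2⟩, rfl⟩
    refine ⟨⟨y * u, hu2, ?_⟩, ⟨x * u, hu1, ?_⟩⟩
    · simp only [ml_apply]; ring
    · simp only [ml_apply]; ring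

theorem xy_ne : (x * y : MvPolynomial (Fin 2) K) ≠ 0 :=
  mul_ne_zero (X_ne_zero _) (X_ne_zero _)

theorem finrank_up_add (V : Submodule K (MvPolynomial (Fin 2) K)) [FiniteDimensional K V] :
    finrank K (up V) + finrank K (down V) = 2 * finrank K V := by
  have h := Submodule.finrank_sup_add_finrank_inf_eq (V.map (ml x)) (V.map (ml y))
  rw [inf_eq, finrank_map_ml xy_ne, finrank_map_ml (X_ne_zero _),
    finrank_map_ml (X_ne_zero _)] at h
  unfold up
  omega

theorem down_finite (V : Submodule K (MvPolynomial (Fin 2) K)) [FiniteDimensional K V] :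
    FiniteDimensional K (down V) := by
  have hle : (down V).map (ml x) ≤ V := by
    rintro _ ⟨u, hu, rfl⟩
    exact hu.1
  have : FiniteDimensional K ((down V).map (ml x)) := Submodule.finiteDimensional_of_le hle
  exact LinearEquiv.finiteDimensional
    (Submodule.equivMapOfInjective (ml x) (ml_inj (X_ne_zero _)) (down V)).symm

theorem up_down_le (V : Submodule K (MvPolynomial (Fin 2) K)) : up (down V) ≤ V := by
  apply sup_le
  · rintro _ ⟨u, hu, rfl⟩
    exact hu.1
  · rintro _ ⟨u, hu, rfl⟩
    exact hu.2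

theorem down_hom {d : ℕ} {V : Submodule K (MvPolynomial (Fin 2) K)}
    (hV : V ≤ homogeneousSubmodule (Fin 2) K d) :
    down V ≤ homogeneousSubmodule (Fin 2) K (d - 1) := by
  intro u hu
  have h1 : (x * u).IsHomogeneous d := hV hu.1
  rw [mem_homogeneousSubmodule]
  intro m hm
  have h2 : coeff (m + Finsupp.single 0 1) (x * u) ≠ 0 := by
    rw [mul_comm, coeff_mul_X]; exact hm
  have h3 := h1 h2
  have h4 : Finsupp.weight (1 : Fin 2 → ℕ) (m + Finsupp.single 0 1)
      = Finsupp.weight (1 : Fin 2 → ℕ) m + 1 := by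
    rw [map_add]
    congr 1
    simp [Finsupp.weight_apply]
  omega

theorem common_factor (r : ℕ) : ∀ (d : ℕ) (V : Submodule K (MvPolynomial (Fin 2) K)),
    V ≤ homogeneousSubmodule (Fin 2) K d → finrank K V = r + 1 →
    finrank K (up V) ≤ r + 2 →
    ∃ q : MvPolynomial (Fin 2) K, q ≠ 0 ∧ q.IsHomogeneous (d - r) ∧ ∀ v ∈ V, q ∣ v := by
  induction r with
  | zero =>
    intro d V hV hr _
    obtain ⟨v, hv0, hv⟩ := finrank_eq_one_iff'.mp hr
    refine ⟨v, ?_, ?_, ?_⟩
    · intro h; exact hv0 (Subtype.ext h)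
    · exact hV v.2
    · intro w hw
      obtain ⟨c, hc⟩ := hv ⟨w, hw⟩
      have : w = c • (v : MvPolynomial (Fin 2) K) := by
        have := congrArg Subtype.val hc
        simpa using this.symm
      rw [this, smul_eq_C_mul]
      exact dvd_mul_left _ _
  | succ r ih =>
    intro d V hV hr hup
    have hfin : FiniteDimensional K V := Module.finite_of_finrank_pos (by omega)
    have hdf := down_finite V
    have h1 := finrank_up_add V
    have hU : down V ≠ ⊥ := by
      intro h
      rw [h] at h1
      simp at h1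
      omega
    have h2 := finrank_up_ge (down V) hU
    have huf := up_finite (down V)
    have h3 : finrank K (up (down V)) ≤ finrank K V :=
      Submodule.finrank_mono (up_down_le V)
    have heq : up (down V) = V :=
      Submodule.eq_of_le_of_finrank_le (up_down_le V) (by omega)
    obtain ⟨q, hq0, hqh, hq⟩ := ih (d - 1) (down V) (down_hom hV) (by omega) (by omega)
    refine ⟨q, hq0, ?_, ?_⟩
    · have : d - 1 - r = d - (r + 1) := by omega
      rw [← this]; exact hqh
    · intro v hv
      rw [← heq] at hv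
      obtain ⟨a, ⟨a', ha', rfl⟩, b, ⟨b', hb', rfl⟩, rfl⟩ := Submodule.mem_sup.mp hv
      apply dvd_add
      · exact dvd_mul_of_dvd_right (hq a' ha') _
      · exact dvd_mul_of_dvd_right (hq b' hb') _

end Vale.Agent.P200e
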