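import Vale.Agent.P200e.Two

namespace Vale.Agent.P200e

open MvPolynomial Module

variable {K : Type} [Field K]

/-- number of exponent vectors of degree `d` in `E` -/
noncomputable def cnt {n : ℕ} (E : Set (Fin n → ℕ)) (d : ℕ) : ℕ :=
  Nat.card {e : Fin n → ℕ // e ∈ E ∧ ∑ i, e i = d}

theorem finrank_rs {n : ℕ} (s : Set (Fin n →₀ ℕ)) :
    finrank K (restrictSupport K s) = Nat.card s :=
  Module.finrank_eq_nat_card_basis (basisRestrictSupport K s)

theorem homSub_eq (n d : ℕ) : homogeneousSubmodule (Fin n) K d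
    = restrictSupport K {m | m.degree = d} := homogeneousSubmodule_eq_finsupp_supported _ _ _

instance homSub_finite (n d : ℕ) : FiniteDimensional K (homogeneousSubmodule (Fin n) K d) :=
  Module.Finite.iff_fg.mpr (homogeneousSubmodule_fg _ _ d)

instance piece_finite {n : ℕ} (I : Ideal (MvPolynomial (Fin n) K)) (d : ℕ) :
    FiniteDimensional K (piece I d) :=
  Submodule.finiteDimensional_of_le (inf_le_right : piece I d ≤ _)

theorem card_cnt {n : ℕ} (E : Set (Fin n → ℕ)) (d : ℕ) :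
    Nat.card ({m : Fin n →₀ ℕ | (m : Fin n → ℕ) ∈ E ∧ m.degree = d} : Set (Fin n →₀ ℕ))
      = cnt E d := by
  unfold cnt
  apply Nat.card_congr
  refine Equiv.subtypeEquiv Finsupp.equivFunOnFinite ?_
  intro m
  change ((m : Fin n → ℕ) ∈ E ∧ m.degree = d) ↔ _
  rw [Finsupp.degree_eq_sum]
  exact Iff.rfl

theorem cnt_two (E : Set (Fin 2 → ℕ)) (d : ℕ) [DecidablePred (fun i : ℕ => ![i, d - i] ∈ E)] :
    cnt E d = ((Finset.range (d + 1)).filter (fun i => ![i, d - i] ∈ E)).card := by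
  unfold cnt
  rw [← Fintype.card_coe, ← Nat.card_eq_fintype_card]
  apply Nat.card_congr
  refine ⟨fun e => ⟨e.1 0, ?_⟩, fun i => ⟨![i.1, d - i.1], ?_⟩, ?_, ?_⟩
  · have h := e.2.2
    rw [Fin.sum_univ_two] at h
    have h2 : ![e.1 0, d - e.1 0] = e.1 := by
      funext j
      fin_cases j
      · rfl
      · change d - e.1 0 = e.1 1; omega
    rw [Finset.mem_filter, Finset.mem_range]
    refine ⟨by omega, ?_⟩
    rw [h2]; exact e.2.1
  · have h := i.2
    rw [Finset.mem_filter, Finset.mem_range] at h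
    refine ⟨h.2, ?_⟩
    rw [Fin.sum_univ_two]
    change i.1 + (d - i.1) = d
    omega
  · intro e
    have h := e.2.2
    rw [Fin.sum_univ_two] at h
    apply Subtype.ext
    funext j
    fin_cases j
    · rfl
    · change d - e.1 0 = e.1 1; omega
  · intro i
    rfl

theorem finrank_S2 (d : ℕ) : finrank K (homogeneousSubmodule (Fin 2) K d) = d + 1 := by
  classical
  rw [homSub_eq, finrank_rs]
  have h := card_cnt (n := 2) Set.univ d
  have h2 : ({m : Fin 2 →₀ ℕ | (m : Fin 2 → ℕ) ∈ (Set.univ : Set (Fin 2 → ℕ)) ∧ m.degree = d} :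
      Set (Fin 2 →₀ ℕ)) = {m | m.degree = d} := by
    ext m
    change (_ ∧ _) ↔ _
    exact ⟨fun h => h.2, fun h => ⟨trivial, h⟩⟩
  rw [h2] at h
  rw [h, cnt_two]
  simp

theorem finrank_piece_le (I : Ideal (MvPolynomial (Fin 2) K)) (d : ℕ) :
    finrank K (piece I d) ≤ d + 1 := by
  rw [← finrank_S2 (K := K) d]
  exact Submodule.finrank_mono inf_le_right

theorem up_piece_le (I : Ideal (MvPolynomial (Fin 2) K)) (d : ℕ) :
    up (piece I d) ≤ piece I (d + 1) := by
  apply sup_le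
  · rintro _ ⟨u, hu, rfl⟩
    refine ⟨I.mul_mem_left _ hu.1, ?_⟩
    have h : (u : MvPolynomial (Fin 2) K).IsHomogeneous d := hu.2
    have := (isHomogeneous_X K (0 : Fin 2)).mul h
    rw [add_comm] at this
    exact this
  · rintro _ ⟨u, hu, rfl⟩
    refine ⟨I.mul_mem_left _ hu.1, ?_⟩
    have h : (u : MvPolynomial (Fin 2) K).IsHomogeneous d := hu.2
    have := (isHomogeneous_X K (1 : Fin 2)).mul h
    rw [add_comm] at this
    exact this

theorem lemmaA (I : Ideal (MvPolynomial (Fin 2) K)) (d : ℕ) (h : 0 < finrank K (piece I d)) :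
    finrank K (piece I d) + 1 ≤ finrank K (piece I (d + 1)) := by
  have hne : piece I d ≠ ⊥ := by
    intro h0; rw [h0] at h; simp at h
  exact (finrank_up_ge _ hne).trans (Submodule.finrank_mono (up_piece_le I d))

/-- `I` contains two coprime forms of degrees `a`, `b`. -/
def Two (a b : ℕ) (I : Ideal (MvPolynomial (Fin 2) K)) : Prop :=
  ∃ g ∈ I, ∃ h ∈ I, g.IsHomogeneous a ∧ h.IsHomogeneous b ∧ IsRelPrime g h

theorem prime_dvd_of_pow {p g : MvPolynomial (Fin 2) K} (hp : Prime p) {k : ℕ}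
    (h1 : p ∣ x ^ k * g) (h2 : p ∣ y ^ k * g) : p ∣ g := by
  by_contra hg
  have hx : p ∣ x := hp.dvd_of_dvd_pow ((hp.dvd_or_dvd h1).resolve_right hg)
  have hy : p ∣ y := hp.dvd_of_dvd_pow ((hp.dvd_or_dvd h2).resolve_right hg)
  have := (hp.dvd_prime_iff_associated prime_x).mp hx
  exact not_x_y (this.symm.dvd.trans hy)

theorem pow_mul_mem {I : Ideal (MvPolynomial (Fin 2) K)} {g : MvPolynomial (Fin 2) K} {a d : ℕ}
    (hg : g ∈ I) (hgh : g.IsHomogeneous a) (had : a ≤ d) (i : Fin 2) :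
    X i ^ (d - a) * g ∈ piece I d := by
  refine ⟨I.mul_mem_left _ hg, ?_⟩
  have := ((isHomogeneous_X K i).pow (d - a)).mul hgh
  have h2 : 1 * (d - a) + a = d := by omega
  rw [h2] at this
  exact this

theorem lemmaB {a b : ℕ} (hab : a ≤ b) {I : Ideal (MvPolynomial (Fin 2) K)} (hI : Two a b I)
    {d : ℕ} (hd : b ≤ d + 1) (h0 : 0 < finrank K (piece I d)) (h1 : finrank K (piece I d) < d + 1) :
    finrank K (piece I d) + 2 ≤ finrank K (piece I (d + 1)) := by
  by_contra hcon
  have hne : piece I d ≠ ⊥ := by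
    intro h; rw [h] at h0; simp at h0
  have h2 := finrank_up_ge (piece I d) hne
  have hle := up_piece_le I d
  have heq : up (piece I d) = piece I (d + 1) :=
    Submodule.eq_of_le_of_finrank_le hle (by omega)
  obtain ⟨r, hr⟩ : ∃ r, finrank K (piece I d) = r + 1 := ⟨finrank K (piece I d) - 1, by omega⟩
  obtain ⟨q, hq0, hqh, hq⟩ := common_factor r d (piece I d) inf_le_right hr
    (by rw [heq]; omega)
  have hall : ∀ w ∈ piece I (d + 1), q ∣ w := by
    intro w hw
    rw [← heq] at hw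
    obtain ⟨_, ⟨a', ha', rfl⟩, _, ⟨b', hb', rfl⟩, rfl⟩ := Submodule.mem_sup.mp hw
    apply dvd_add
    · exact dvd_mul_of_dvd_right (hq a' ha') _
    · exact dvd_mul_of_dvd_right (hq b' hb') _
  have hnu : ¬ IsUnit q := by
    intro hu
    have h3 := hqh.totalDegree hq0
    have h4 : q.totalDegree = 0 := by
      obtain ⟨c, hc⟩ := (MvPolynomial.isUnit_iff_eq_C_of_isReduced.mp hu)
      rw [hc.2]; exact totalDegree_C _
    omega
  obtain ⟨p, hp, hpq⟩ := WfDvdMonoid.exists_irreducible_factor hnu hq0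
  have hpp : Prime p := hp.prime
  obtain ⟨g, hg, h, hh, hga, hhb, hrel⟩ := hI
  have e1 := hpq.trans (hall _ (pow_mul_mem hg hga (by omega : a ≤ d + 1) 0))
  have e2 := hpq.trans (hall _ (pow_mul_mem hg hga (by omega : a ≤ d + 1) 1))
  have e3 := hpq.trans (hall _ (pow_mul_mem hh hhb hd 0))
  have e4 := hpq.trans (hall _ (pow_mul_mem hh hhb hd 1))
  exact hpp.not_isUnit (hrel (prime_dvd_of_pow hpp e1 e2) (prime_dvd_of_pow hpp e3 e4))

end Vale.Agent.P200e
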